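import Vale.Agent.Lib.P170S.Conv

/-! Step six: from polynomial tail bounds around centres to a limiting threshold. -/

namespace Vale.Agent.Lib.P170T

open Finset Filter Topology
open Vale.Agent.Lib.P170 Vale.Agent.Lib.P170S

/-- Tail bounds around the centres `ρ n` with a polynomial rate (output of steps one to five). -/
def PolyWindow (k : ℕ) (ρ : ℕ → ℝ) : Prop :=
  ∃ C c : ℝ, 0 < C ∧ 0 < c ∧ ∃ n₀ : ℕ, ∀ n : ℕ, n₀ ≤ n → ∀ d : ℝ, 0 < d →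
    1 - C / ((n:ℝ) ^ c * d ^ 2) ≤ satProb k n ⌊(ρ n - d) * n⌋₊ ∧
      satProb k n ⌊(ρ n + d) * n⌋₊ ≤ C / ((n:ℝ) ^ c * d ^ 2)

lemma err_tendsto {C c d : ℝ} (hc : 0 < c) :
    Tendsto (fun n : ℕ => C / ((n:ℝ) ^ c * d ^ 2)) atTop (𝓝 0) := by
  have h1 : Tendsto (fun n : ℕ => (n:ℝ) ^ c) atTop atTop :=
    (tendsto_rpow_atTop hc).comp tendsto_natCast_atTop_atTop
  by_cases hd : d = 0
  · subst hd
    simp
  have h2 : Tendsto (fun n : ℕ => (n:ℝ) ^ c * d ^ 2) atTop atTop :=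
    h1.atTop_mul_const (by positivity)
  exact h2.const_div_atTop C

/-- Polynomial windows give a threshold sequence. -/
theorem window_threshold {k : ℕ} {ρ : ℕ → ℝ} (h : PolyWindow k ρ) : IsThresholdSeq k ρ := by
  obtain ⟨C, c, hC, hc, n₀, hn⟩ := h
  intro ε hε
  have hT := err_tendsto (C := C) (d := ε) hc
  constructor
  · have h1 : Tendsto (fun n : ℕ => 1 - C / ((n:ℝ) ^ c * ε ^ 2)) atTop (𝓝 1) := by
      simpa using (tendsto_const_nhds (x := (1:ℝ))).sub hT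
    refine tendsto_of_tendsto_of_tendsto_of_le_of_le' h1 tendsto_const_nhds ?_ ?_
    · filter_upwards [eventually_ge_atTop n₀] with n hn'
      exact (hn n hn' ε hε).1
    · filter_upwards [eventually_ge_atTop k] with n hn'
      exact satProb_le_one hn' _
  · refine tendsto_of_tendsto_of_tendsto_of_le_of_le' tendsto_const_nhds hT ?_ ?_
    · filter_upwards [eventually_ge_atTop k] with n hn'
      exact satProb_nonneg hn' _
    · filter_upwards [eventually_ge_atTop n₀] with n hn'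
      exact (hn n hn' ε hε).2

/-- The error factor is of order `1 / B`. -/
lemma etaB_le {k B : ℕ} (hk : 1 ≤ k) (hB : 4 * k ^ 2 ≤ B) :
    etaB k B ≤ 4 * (k:ℝ) ^ 2 / B := by
  have hB' : (4:ℝ) * (k:ℝ) ^ 2 ≤ B := by exact_mod_cast hB
  have hk' : (1:ℝ) ≤ k := by exact_mod_cast hk
  have hB0 : (0:ℝ) < B := by nlinarith
  set x : ℝ := 2 * ((k:ℝ) - 1) / B with hx
  have hx0 : 0 ≤ x := by
    rw [hx]
    apply div_nonneg _ hB0.le
    linarith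
  have hkx : (k:ℝ) * x ≤ 1 / 2 := by
    rw [hx, ← mul_div_assoc, div_le_iff₀ hB0]
    nlinarith
  have hx1 : x ≤ 1 / 2 := by nlinarith
  have e : (B:ℝ) / ((B:ℝ) - 2 * ((k:ℝ) - 1)) = 1 / (1 - x) := by
    rw [hx]
    have : (B:ℝ) - 2 * ((k:ℝ) - 1) ≠ 0 := by nlinarith
    field_simp
  have hbern : 1 - (k:ℝ) * x ≤ (1 - x) ^ k := by
    have := one_add_mul_le_pow (a := -x) (by linarith) k
    have e2 : 1 + (k:ℝ) * -x = 1 - (k:ℝ) * x := by ring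
    have e3 : 1 + -x = 1 - x := by ring
    rw [e2, e3] at this
    exact this
  have h1 : (0:ℝ) < 1 - (k:ℝ) * x := by linarith
  have h2 : (1 / (1 - x)) ^ k ≤ 1 / (1 - (k:ℝ) * x) := by
    rw [div_pow, one_pow]
    exact one_div_le_one_div_of_le h1 hbern
  have hu0 : 0 ≤ (k:ℝ) * x := by positivity
  have h3 : 1 / (1 - (k:ℝ) * x) ≤ 1 + 2 * ((k:ℝ) * x) := by
    rw [div_le_iff₀ h1]
    nlinarith [mul_nonneg hu0 (by linarith : 0 ≤ 1 - 2 * ((k:ℝ) * x))]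
  unfold etaB
  rw [e]
  have h4 : 2 * ((k:ℝ) * x) ≤ 4 * (k:ℝ) ^ 2 / B := by
    rw [hx, le_div_iff₀ hB0]
    have : 2 * ((k:ℝ) * (2 * ((k:ℝ) - 1) / B)) * B = 4 * (k:ℝ) * ((k:ℝ) - 1) := by
      field_simp
      ring
    rw [this]
    nlinarith
  linarith

/-- The arithmetic of one doubling step. -/
lemma two_err {x y z₁ z₂ A P : ℝ} (hx0 : 0 ≤ x) (hx : x ≤ 1 / 10) (hy : y ≤ 1 / 10)
    (hz₁ : z₁ ≤ 1 / 10) (hz₂ : z₂ ≤ 1 / 10) (hA : 1 - x ≤ A)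
    (hP : P ≤ x) (hmain : (1 - y) * (A * A) - z₁ - z₂ ≤ P) : False := by
  have h1 : (1 - x) * (1 - x) ≤ A * A :=
    mul_le_mul hA hA (by linarith) (by linarith)
  have h2 : (81:ℝ) / 100 ≤ (1 - x) * (1 - x) := by nlinarith
  have h3 : (9:ℝ) / 10 ≤ 1 - y := by linarith
  have h4 : (9:ℝ) / 10 * (81 / 100) ≤ (1 - y) * (A * A) :=
    mul_le_mul h3 (h2.trans h1) (by norm_num) (by linarith)
  norm_num at h4
  linarith

lemma ev_small (K : ℝ) {e : ℝ} (he : 0 < e) :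
    ∀ᶠ n : ℕ in atTop, K / (n:ℝ) ^ e ≤ 1 / 10 := by
  have h1 : Tendsto (fun n : ℕ => (n:ℝ) ^ e) atTop atTop :=
    (tendsto_rpow_atTop he).comp tendsto_natCast_atTop_atTop
  have h2 : Tendsto (fun n : ℕ => K / (n:ℝ) ^ e) atTop (𝓝 0) := h1.const_div_atTop K
  exact (h2.eventually (gt_mem_nhds (by norm_num))).mono fun _ h => h.le

lemma ev_large (K : ℝ) {e : ℝ} (he : 0 < e) :
    ∀ᶠ n : ℕ in atTop, K ≤ (n:ℝ) ^ e :=
  ((tendsto_rpow_atTop he).comp tendsto_natCast_atTop_atTop).eventually (eventually_ge_atTop K)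


lemma err_Y' {L D N ε t : ℝ} (hN0 : 0 < N) (hε0 : 0 < ε) (ht : t = ε * N / 8)
    (hLle : L ≤ D * N) (hy : 16 * D / (ε ^ 2 * N) ≤ 1 / 10) :
    L * (1 / 2 * (1 / 2)) / t ^ 2 ≤ 1 / 10 := by
  have e : 16 * D / (ε ^ 2 * N) = D * N * (1 / 2 * (1 / 2)) / t ^ 2 := by
    rw [ht]
    field_simp
    ring
  rw [e] at hy
  refine le_trans ?_ hy
  have ht0 : 0 < t := by rw [ht]; positivity
  apply div_le_div_of_nonneg_right _ (by positivity)
  exact mul_le_mul_of_nonneg_right hLle (by norm_num)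

lemma err_Z₁' {η L D N ε t K B q w : ℝ} (hN0 : 0 < N) (hε0 : 0 < ε) (hD0 : 0 < D) (hK : 0 ≤ K)
    (hq0 : 0 < q) (hqB : q ≤ B) (hη : η ≤ 4 * K / B) (hL0 : 0 ≤ L) (hLle : L ≤ D * N)
    (ht : t = ε * N / 8) (hz : 32 * K * D / (q * ε) ≤ 1 / 10) (hw : t ≤ w) (hw0 : 0 < w) :
    η * L / w ≤ 1 / 10 := by
  have hB0 : 0 < B := lt_of_lt_of_le hq0 hqB
  have ht0 : 0 < t := by rw [ht]; positivity
  rw [div_le_iff₀ hw0]
  have h1 : η * L ≤ (4 * K / B) * (D * N) :=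
    mul_le_mul_of_nonneg_right hη hL0 |>.trans
      (mul_le_mul_of_nonneg_left hLle (by positivity))
  have h2 : (4 * K / B) * (D * N) ≤ (4 * K / q) * (D * N) := by
    apply mul_le_mul_of_nonneg_right _ (by positivity)
    exact div_le_div_of_nonneg_left (by positivity) hq0 hqB
  have h3 : (4 * K / q) * (D * N) = (32 * K * D / (q * ε)) * t := by
    rw [ht]
    field_simp
    ring
  have h4 : (32 * K * D / (q * ε)) * t ≤ 1 / 10 * w :=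
    mul_le_mul hz hw ht0.le (by norm_num)
  linarith

lemma err_Z₂' {L D N τ B q s : ℝ} (hN0 : 0 < N) (hD0 : 0 < D) (hq0 : 0 < q) (hs0 : 0 < s)
    (hL0 : 0 ≤ L) (hLle : L ≤ D * N) (hτ0 : 0 ≤ τ) (hτ : τ ≤ (B / (4 * N)) ^ 2) (hB0 : 0 ≤ B)
    (hB : B ≤ 2 * q) (hqs : q ^ 2 = s) (hsN : s * s = N) (hz : D / 4 / s ≤ 1 / 10) :
    L * τ ≤ 1 / 10 := by
  have h1 : L * τ ≤ (D * N) * (B / (4 * N)) ^ 2 :=
    mul_le_mul hLle hτ hτ0 (by positivity)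
  have h2 : (B / (4 * N)) ^ 2 ≤ (2 * q / (4 * N)) ^ 2 := by
    apply pow_le_pow_left₀ (by positivity)
    exact div_le_div_of_nonneg_right hB (by positivity)
  have h3 : (D * N) * (2 * q / (4 * N)) ^ 2 = D / 4 / s := by
    rw [div_pow, mul_pow, hqs, ← hsN]
    field_simp
    ring
  have h4 := mul_le_mul_of_nonneg_left h2 (by positivity : 0 ≤ D * N)
  linarith

lemma budget_aux {m w m₁ α ρ' d ε N t : ℝ} (hN0 : 0 < N)
    (hmle : m ≤ α * (N + N)) (hwlt : w < t + 1) (ht : t = ε * N / 8) (hεN : 5 ≤ ε * N)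
    (h1 : ε / 2 ≤ ρ' - d - α) (hm₁ : (ρ' - d) * N < m₁ + 1) :
    (m + w) * (1 / 2) + t ≤ m₁ := by
  have h2 : (α + ε / 2) * N ≤ (ρ' - d) * N :=
    mul_le_mul_of_nonneg_right (by linarith) hN0.le
  have e5 : (α + ε / 2) * N = α * N + ε * N / 2 := by ring
  have e6 : α * (N + N) = 2 * (α * N) := by ring
  rw [e6] at hmle
  rw [ht] at hwlt ⊢
  linarith

lemma total_aux {m w α R N t ε : ℝ} (hN2 : 2 ≤ N) (hε0 : 0 < ε) (hε1 : ε ≤ 1) (hαle : α ≤ R + 1)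
    (hmle : m ≤ α * (N + N)) (hwlt : w < t + 1) (ht : t = ε * N / 8) :
    m + w ≤ (2 * R + 3) * N := by
  have hN0 : 0 < N := by linarith
  have h1 : α * (N + N) ≤ (R + 1) * (N + N) :=
    mul_le_mul_of_nonneg_right hαle (by linarith)
  have h2 : t ≤ N / 8 := by
    rw [ht]
    nlinarith
  nlinarith

/-- The core of one doubling step at a fixed size. -/
lemma doubling_core {k n n₀ : ℕ} {ρ : ℕ → ℝ} {R C c ε q s : ℝ} (hk : 2 ≤ k) (hR0 : 0 < R)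
    (hC : 0 < C) (hc : 0 < c)
    (hwin : ∀ n : ℕ, n₀ ≤ n → ∀ d : ℝ, 0 < d →
      1 - C / ((n:ℝ) ^ c * d ^ 2) ≤ satProb k n ⌊(ρ n - d) * n⌋₊ ∧
        satProb k n ⌊(ρ n + d) * n⌋₊ ≤ C / ((n:ℝ) ^ c * d ^ 2))
    (hnn₀ : n₀ ≤ n) (hρR : ρ (n + n) ≤ R) (hε0 : 0 < ε) (hε1 : ε ≤ 1) (hq0 : 0 < q) (hs0 : 0 < s)
    (hqs : q ^ 2 = s) (hsn : s * s = n) (hqn : q ≤ n)
    (hx : C / ((n:ℝ) ^ c * (ε / 4) ^ 2) ≤ 1 / 10)
    (hy : 16 * (2 * R + 3) / (ε ^ 2 * n) ≤ 1 / 10)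
    (hz₁ : 32 * (k:ℝ) ^ 2 * (2 * R + 3) / (q * ε) ≤ 1 / 10)
    (hz₂ : (2 * R + 3) / 4 / s ≤ 1 / 10)
    (hεn : 5 ≤ ε * n)
    (hB4 : 4 * (k:ℝ) ^ 2 + 2 ≤ q)
    (hn2 : 2 ≤ n) (hkn : k ≤ n) :
    ρ n - ε ≤ ρ (n + n) := by
  have hk1 : 1 ≤ k := by omega
  by_contra hcon
  push Not at hcon
  have hN2 : (2:ℝ) ≤ (n:ℝ) := by exact_mod_cast hn2
  have hN0 : (0:ℝ) < (n:ℝ) := by linarith
  have hd0 : 0 < ε / 4 := by positivity
  have hNc0 : 0 < (n:ℝ) ^ c := Real.rpow_pos_of_pos hN0 _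
  have hx0 : 0 ≤ C / ((n:ℝ) ^ c * (ε / 4) ^ 2) := by positivity
  have hNN : ((n + n : ℕ) : ℝ) = (n:ℝ) + n := by push_cast; ring
  have hle2 : C / (((n + n : ℕ) : ℝ) ^ c * (ε / 4) ^ 2) ≤ C / ((n:ℝ) ^ c * (ε / 4) ^ 2) := by
    apply div_le_div_of_nonneg_left hC.le (by positivity)
    apply mul_le_mul_of_nonneg_right _ (by positivity)
    apply Real.rpow_le_rpow hN0.le (by rw [hNN]; linarith) hc.le
  have htail2 := (hwin (n + n) (by omega) (ε / 4) hd0).2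
  have htail1 := (hwin n hnn₀ (ε / 4) hd0).1
  obtain ⟨α, hα⟩ : ∃ α : ℝ, α = ρ (n + n) + ε / 4 := ⟨_, rfl⟩
  rw [← hα] at htail2
  have hα0 : 0 < α := by
    by_contra hneg
    push Not at hneg
    have hfl : ⌊α * ((n + n : ℕ) : ℝ)⌋₊ = 0 :=
      Nat.floor_of_nonpos (mul_nonpos_of_nonpos_of_nonneg hneg (by positivity))
    rw [hfl, satProb_zero] at htail2
    linarith
  have hαle : α ≤ R + 1 := by linarith
  obtain ⟨m, hm⟩ : ∃ m : ℕ, m = ⌊α * ((n + n : ℕ) : ℝ)⌋₊ := ⟨_, rfl⟩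
  rw [← hm] at htail2
  have hmle : (m:ℝ) ≤ α * ((n:ℝ) + n) := by
    rw [← hNN, hm]
    exact Nat.floor_le (by positivity)
  obtain ⟨t, ht⟩ : ∃ t : ℝ, t = ε * n / 8 := ⟨_, rfl⟩
  have ht0 : 0 < t := by rw [ht]; positivity
  obtain ⟨w, hw⟩ : ∃ w : ℕ, w = ⌈t⌉₊ := ⟨_, rfl⟩
  have hwge : t ≤ w := by rw [hw]; exact Nat.le_ceil _
  have hwlt : (w:ℝ) < t + 1 := by rw [hw]; exact Nat.ceil_lt_add_one ht0.le
  have hw0 : 0 < w := by
    have : (0:ℝ) < w := lt_of_lt_of_le ht0 hwge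
    exact_mod_cast this
  obtain ⟨m₁, hm₁⟩ : ∃ m₁ : ℕ, m₁ = ⌊(ρ n - ε / 4) * n⌋₊ := ⟨_, rfl⟩
  rw [← hm₁] at htail1
  have hm₁lt : (ρ n - ε / 4) * n < m₁ + 1 := by rw [hm₁]; exact Nat.lt_floor_add_one _
  have hwt₁ : wt₁ n n = 1 / 2 := by
    unfold wt₁
    field_simp
    ring
  have hwt₂ : wt₂ n n = 1 / 2 := by
    unfold wt₂
    field_simp
    ring
  have hLcast : ((m + w : ℕ) : ℝ) = (m:ℝ) + w := by push_cast; ring
  have hbudget : ((m + w : ℕ) : ℝ) * (1 / 2) + t ≤ m₁ := by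
    rw [hLcast]
    exact budget_aux hN0 hmle hwlt ht hεn (by rw [hα]; linarith) hm₁lt
  obtain ⟨B, hB⟩ : ∃ B : ℕ, B = ⌈q⌉₊ := ⟨_, rfl⟩
  have hBge : q ≤ B := by rw [hB]; exact Nat.le_ceil _
  have hBlt : (B:ℝ) < q + 1 := by rw [hB]; exact Nat.ceil_lt_add_one hq0.le
  have hBk : 4 * k ^ 2 + 2 ≤ B := by
    have : ((4 * k ^ 2 + 2 : ℕ) : ℝ) ≤ B := by
      push_cast
      linarith
    exact_mod_cast this
  have hkk : k ≤ k ^ 2 := Nat.le_self_pow (by norm_num) k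
  have hB2 : 2 * (k - 1) < B := by omega
  have hB44 : 4 * k ^ 2 ≤ B := by omega
  have hB0 : (0:ℝ) < B := lt_of_lt_of_le hq0 hBge
  have hq1 : (1:ℝ) ≤ q := by nlinarith [sq_nonneg ((k:ℝ))]
  have hBle : (B:ℝ) ≤ 2 * q := by linarith
  have hmain := main_ineq hk1 hkn hkn hB2 m w m₁ m₁ hw0 ht0
    (by rw [hwt₁]; exact hbudget) (by rw [hwt₂]; exact hbudget)
  have hLle : ((m + w : ℕ) : ℝ) ≤ (2 * R + 3) * n := by
    rw [hLcast]
    exact total_aux hN2 hε0 hε1 hαle hmle hwlt ht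
  have hL0 : (0:ℝ) ≤ ((m + w : ℕ) : ℝ) := by positivity
  have hY : ((m + w : ℕ) : ℝ) * (wt₁ n n * wt₂ n n) / t ^ 2 ≤ 1 / 10 := by
    rw [hwt₁, hwt₂]
    exact err_Y' hN0 hε0 ht hLle hy
  have hZ₁ : etaB k B * ((m + w : ℕ) : ℝ) / w ≤ 1 / 10 :=
    err_Z₁' hN0 hε0 (by positivity) (by positivity) hq0 hBge (etaB_le hk1 hB44) hL0 hLle ht hz₁
      hwge (by exact_mod_cast hw0)
  have hZ₂ : ((m + w : ℕ) : ℝ) * tauB k B (n + n) ≤ 1 / 10 := by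
    refine err_Z₂' hN0 (by positivity) hq0 hs0 hL0 hLle (tauB_nonneg _ _ _) ?_ hB0.le hBle hqs hsn hz₂
    unfold tauB
    rw [hNN]
    have e : 2 * ((n:ℝ) + n) = 4 * n := by ring
    rw [e]
    apply pow_le_pow_of_le_one (by positivity) _ hk
    rw [div_le_one (by positivity)]
    linarith
  exact two_err hx0 hx hY hZ₁ hZ₂ htail1 (htail2.trans hle2) hmain

/-- One doubling step: the centres cannot drop by more than a polynomially small amount. -/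
theorem doubling {k : ℕ} (hk : 2 ≤ k) {ρ : ℕ → ℝ} (h : PolyWindow k ρ) :
    ∃ β : ℝ, 0 < β ∧ ∃ n₁ : ℕ, ∀ n : ℕ, n₁ ≤ n → ρ n - (n:ℝ) ^ (-β) ≤ ρ (2 * n) := by
  have hk1 : 1 ≤ k := by omega
  obtain ⟨R, hR0, hR⟩ := threshold_bounded hk1 (window_threshold h)
  obtain ⟨C, c, hC, hc, n₀, hn₀⟩ := h
  set β : ℝ := min c (1 / 2) / 4 with hβ
  have hβ0 : 0 < β := by
    rw [hβ]
    have : 0 < min c (1 / 2) := lt_min hc (by norm_num)
    positivity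
  have hβ1 : β ≤ 1 / 8 := by
    rw [hβ]
    have : min c (1 / 2) ≤ 1 / 2 := min_le_right _ _
    linarith
  have hβ2 : 2 * β ≤ c / 2 := by
    rw [hβ]
    have : min c (1 / 2) ≤ c := min_le_left _ _
    linarith
  refine ⟨β, hβ0, ?_⟩
  obtain ⟨nR, hnR⟩ := eventually_atTop.mp hR
  have e1 : 0 < c - 2 * β := by linarith
  have e2 : 0 < 1 - 2 * β := by linarith
  have e3 : 0 < 1 / 4 - β := by linarith
  have e4 : 0 < 1 - β := by linarith
  have e5 : (0:ℝ) < 1 / 2 := by norm_num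
  have e6 : (0:ℝ) < 1 / 4 := by norm_num
  have hev := (ev_small (16 * C) e1).and ((ev_small (16 * (2 * R + 3)) e2).and
    ((ev_small (32 * (k:ℝ) ^ 2 * (2 * R + 3)) e3).and ((ev_small ((2 * R + 3) / 4) e5).and
    ((ev_large 5 e4).and ((ev_large (4 * (k:ℝ) ^ 2 + 2) e6).and
    (eventually_ge_atTop (max (max 2 k) (max n₀ nR))))))))
  obtain ⟨n₁, hn₁⟩ := eventually_atTop.mp hev
  refine ⟨n₁, fun n hn => ?_⟩
  obtain ⟨hx, hy, hz₁, hz₂, hεn, hB4, hbig⟩ := hn₁ n hn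
  simp only [max_le_iff] at hbig
  obtain ⟨⟨hn2, hkn⟩, hnn₀, hnnR⟩ := hbig
  have hN2 : (2:ℝ) ≤ (n:ℝ) := by exact_mod_cast hn2
  have hN0 : (0:ℝ) < (n:ℝ) := by linarith
  have hN1 : (1:ℝ) ≤ (n:ℝ) := by linarith
  rw [two_mul]
  have hNc0 : 0 < (n:ℝ) ^ c := Real.rpow_pos_of_pos hN0 _
  have pc : (n:ℝ) ^ c * ((n:ℝ) ^ (-β)) ^ 2 = (n:ℝ) ^ (c - 2 * β) := by
    rw [← Real.rpow_natCast, ← Real.rpow_mul hN0.le, ← Real.rpow_add hN0]
    congr 1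
    push_cast
    ring
  have p1 : ((n:ℝ) ^ (-β)) ^ 2 * (n:ℝ) = (n:ℝ) ^ (1 - 2 * β) := by
    rw [← Real.rpow_natCast, ← Real.rpow_mul hN0.le]
    nth_rewrite 2 [← Real.rpow_one (n:ℝ)]
    rw [← Real.rpow_add hN0]
    congr 1
    push_cast
    ring
  have pn : (n:ℝ) ^ (-β) * (n:ℝ) = (n:ℝ) ^ (1 - β) := by
    nth_rewrite 2 [← Real.rpow_one (n:ℝ)]
    rw [← Real.rpow_add hN0]
    congr 1
    ring
  have pb : (n:ℝ) ^ ((1:ℝ) / 4) * (n:ℝ) ^ (-β) = (n:ℝ) ^ (1 / 4 - β) := by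
    rw [← Real.rpow_add hN0]
    congr 1
  have hq4 : ((n:ℝ) ^ ((1:ℝ) / 4)) ^ 2 = (n:ℝ) ^ ((1:ℝ) / 2) := by
    rw [← Real.rpow_natCast, ← Real.rpow_mul hN0.le]
    congr 1
    norm_num
  have hq2 : (n:ℝ) ^ ((1:ℝ) / 2) * (n:ℝ) ^ ((1:ℝ) / 2) = (n:ℝ) := by
    rw [← Real.rpow_add hN0]
    norm_num
  have hq41 : (n:ℝ) ^ ((1:ℝ) / 4) ≤ (n:ℝ) := by
    calc (n:ℝ) ^ ((1:ℝ) / 4) ≤ (n:ℝ) ^ (1:ℝ) :=
          Real.rpow_le_rpow_of_exponent_le hN1 (by norm_num)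
      _ = (n:ℝ) := Real.rpow_one _
  have hεpos : 0 < (n:ℝ) ^ (-β) := Real.rpow_pos_of_pos hN0 _
  refine doubling_core (k := k) (n := n) (n₀ := n₀) (q := (n:ℝ) ^ ((1:ℝ) / 4))
    (s := (n:ℝ) ^ ((1:ℝ) / 2)) hk hR0 hC hc hn₀ hnn₀ (hnR (n + n) (by omega)) hεpos
    (Real.rpow_le_one_of_one_le_of_nonpos hN1 (by linarith))
    (Real.rpow_pos_of_pos hN0 _) (Real.rpow_pos_of_pos hN0 _) hq4 hq2 hq41 ?_ ?_ ?_ hz₂ ?_ hB4 hn2 hkn
  · have e : C / ((n:ℝ) ^ c * ((n:ℝ) ^ (-β) / 4) ^ 2) = 16 * C / (n:ℝ) ^ (c - 2 * β) := by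
      rw [← pc]
      field_simp
      ring
    rw [e]
    exact hx
  · rw [p1]
    exact hy
  · rw [pb]
    exact hz₁
  · rw [pn]
    exact hεn

/-- Eventually almost monotone sequences that are bounded above converge. -/
lemma tendsto_of_almost_mono {a : ℕ → ℝ} {γ K R : ℝ} {j₀ : ℕ} (hγ0 : 0 ≤ γ) (hγ1 : γ < 1)
    (hstep : ∀ j, j₀ ≤ j → a j - K * γ ^ j ≤ a (j + 1)) (hR : ∀ j, j₀ ≤ j → a j ≤ R)
    (hK : 0 ≤ K) :
    ∃ ρ : ℝ, Tendsto a atTop (𝓝 ρ) := by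
  set b : ℕ → ℝ := fun j => a (j + j₀) - K * γ ^ (j + j₀) / (1 - γ) with hb
  have h1γ : 0 < 1 - γ := by linarith
  have hmono : Monotone b := by
    refine monotone_nat_of_le_succ fun j => ?_
    have h := hstep (j + j₀) (by omega)
    have e : j + 1 + j₀ = j + j₀ + 1 := by ring
    simp only [hb]
    rw [e, pow_succ]
    have : K * (γ ^ (j + j₀) * γ) / (1 - γ) = K * γ ^ (j + j₀) / (1 - γ) - K * γ ^ (j + j₀) := by
      field_simp
      ring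
    rw [this]
    linarith
  have hbd : BddAbove (Set.range b) := by
    refine ⟨R, ?_⟩
    rintro x ⟨j, rfl⟩
    have h1 := hR (j + j₀) (by omega)
    have h2 : 0 ≤ K * γ ^ (j + j₀) / (1 - γ) := by positivity
    simp only [hb]
    linarith
  have hlim := tendsto_atTop_ciSup hmono hbd
  have hpow : Tendsto (fun j : ℕ => K * γ ^ (j + j₀) / (1 - γ)) atTop (𝓝 0) := by
    have h1 : Tendsto (fun j : ℕ => γ ^ (j + j₀)) atTop (𝓝 0) :=
      (tendsto_pow_atTop_nhds_zero_of_lt_one hγ0 hγ1).comp (tendsto_add_atTop_nat j₀)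
    have h2 := (h1.const_mul K).div_const (1 - γ)
    simpa using h2
  refine ⟨⨆ j, b j, ?_⟩
  rw [← tendsto_add_atTop_iff_nat j₀]
  have h3 := hlim.add hpow
  simp only [add_zero] at h3
  refine h3.congr fun j => ?_
  simp only [hb]
  ring

/-- **Step six.**  A polynomial window gives convergence of the centres and a limiting threshold. -/
theorem limit_of_window {k : ℕ} (hk : 2 ≤ k) {ρ : ℕ → ℝ} (h : PolyWindow k ρ) :
    ∃ α : ℝ, Tendsto ρ atTop (𝓝 α) ∧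
      (∀ c : ℝ, c < α → Tendsto (fun n : ℕ => satProb k n ⌊c * n⌋₊) atTop (𝓝 1)) ∧
      (∀ c : ℝ, α < c → Tendsto (fun n : ℕ => satProb k n ⌊c * n⌋₊) atTop (𝓝 0)) := by
  have hk1 : 1 ≤ k := by omega
  have hthr := window_threshold h
  obtain ⟨R, hR0, hR⟩ := threshold_bounded hk1 hthr
  obtain ⟨β, hβ0, n₁, hn₁⟩ := doubling hk h
  obtain ⟨nR, hnR⟩ := eventually_atTop.mp hR
  -- convergence along the powers of two
  have h2pos : (1:ℝ) < 2 := by norm_num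
  have hγ0 : (0:ℝ) ≤ (2:ℝ) ^ (-β) := by positivity
  have hγ1 : (2:ℝ) ^ (-β) < 1 := Real.rpow_lt_one_of_one_lt_of_neg h2pos (by linarith)
  obtain ⟨α, hα⟩ : ∃ α : ℝ, Tendsto (fun j : ℕ => ρ (2 ^ j)) atTop (𝓝 α) := by
    refine tendsto_of_almost_mono (γ := (2:ℝ) ^ (-β)) (K := 1) (R := R) (j₀ := max n₁ nR)
      hγ0 hγ1 ?_ ?_ (by norm_num)
    · intro j hj
      have hj1 : n₁ ≤ 2 ^ j :=
        ((le_max_left _ _).trans hj).trans (Nat.lt_two_pow_self).le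
      have h1 := hn₁ (2 ^ j) hj1
      have e : 2 * 2 ^ j = 2 ^ (j + 1) := by ring
      rw [e] at h1
      have e2 : (((2 ^ j : ℕ) : ℝ)) ^ (-β) = ((2:ℝ) ^ (-β)) ^ j := by
        push_cast
        rw [← Real.rpow_natCast, ← Real.rpow_natCast, ← Real.rpow_mul (by norm_num),
          ← Real.rpow_mul (by norm_num)]
        congr 1
        ring
      rw [e2] at h1
      simpa using h1
    · intro j hj
      exact hnR _ (((le_max_right _ _).trans hj).trans (Nat.lt_two_pow_self).le)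
  have hs : Tendsto (fun j : ℕ => 2 ^ j) atTop atTop :=
    tendsto_pow_atTop_atTop_of_one_lt (by norm_num)
  have hconv : Tendsto ρ atTop (𝓝 α) :=
    converges_of_subseq hk hthr (s := fun j => 2 ^ j) (C := 2) hs
      (fun j => by rw [pow_succ]; omega) hα
  refine ⟨α, hconv, ?_, ?_⟩
  · intro c hc
    set ε := (α - c) / 2 with hε
    have hε0 : 0 < ε := by rw [hε]; linarith
    refine tendsto_of_tendsto_of_tendsto_of_le_of_le' (hthr ε hε0).1 tendsto_const_nhds ?_ ?_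
    · have h1 : ∀ᶠ n in atTop, α - ε < ρ n := hconv.eventually (lt_mem_nhds (by linarith))
      filter_upwards [h1, eventually_ge_atTop k] with n hn hkn
      apply satProb_anti hkn
      apply Nat.floor_le_floor
      apply mul_le_mul_of_nonneg_right _ (Nat.cast_nonneg n)
      rw [hε] at hn ⊢
      linarith
    · filter_upwards [eventually_ge_atTop k] with n hkn
      exact satProb_le_one hkn _
  · intro c hc
    set ε := (c - α) / 2 with hε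
    have hε0 : 0 < ε := by rw [hε]; linarith
    refine tendsto_of_tendsto_of_tendsto_of_le_of_le' tendsto_const_nhds (hthr ε hε0).2 ?_ ?_
    · filter_upwards [eventually_ge_atTop k] with n hkn
      exact satProb_nonneg hkn _
    · have h1 : ∀ᶠ n in atTop, ρ n < α + ε := hconv.eventually (gt_mem_nhds (by linarith))
      filter_upwards [h1, eventually_ge_atTop k] with n hn hkn
      apply satProb_anti hkn
      apply Nat.floor_le_floor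
      apply mul_le_mul_of_nonneg_right _ (Nat.cast_nonneg n)
      rw [hε] at hn ⊢
      linarith

/-- The limit is positive as soon as a positive density is satisfiable with probability `1 / 2`. -/
theorem limit_pos {k : ℕ} {α c : ℝ}
    (hup : ∀ c : ℝ, α < c → Tendsto (fun n : ℕ => satProb k n ⌊c * n⌋₊) atTop (𝓝 0))
    (hc : 0 < c) (hlow : ∃ n₀ : ℕ, ∀ n : ℕ, n₀ ≤ n → 1 / 2 ≤ satProb k n ⌊c * n⌋₊) : 0 < α := by
  by_contra hα
  push Not at hα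
  have h1 := hup c (by linarith)
  obtain ⟨n₀, hn₀⟩ := hlow
  have h2 : ∀ᶠ n : ℕ in atTop, satProb k n ⌊c * n⌋₊ < 1 / 2 :=
    h1.eventually (gt_mem_nhds (by norm_num))
  obtain ⟨n, hn, hn2⟩ := (h2.and (eventually_ge_atTop n₀)).exists
  linarith [hn₀ n hn2]

end Vale.Agent.Lib.P170T
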