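import Vale.Agent.Lib.P170.Main

/-!
Symmetry of the clause operator under signed permutations of the variables:
the survival function of a literal subcube does not depend on the literal.
-/

set_option linter.unusedSectionVars false

namespace Vale.Agent.Lib.P170T

open Finset Vale.Agent.Lib.P170

open Classical

variable {N k : ℕ}

/-- Assignments making a literal true. -/
noncomputable def litSet (l : Fin N × Bool) : Finset (Fin N → Bool) :=
  univ.filter (fun a => a l.1 = l.2)

/-- A signed permutation acting on assignments. -/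
def sgnAssign (σ : Equiv.Perm (Fin N)) (ε : Fin N → Bool) :
    (Fin N → Bool) ≃ (Fin N → Bool) where
  toFun a := fun i => xor (a (σ.symm i)) (ε (σ.symm i))
  invFun a := fun i => xor (a (σ i)) (ε i)
  left_inv a := by
    funext i
    simp
  right_inv a := by
    funext i
    simp

/-- A signed permutation acting on literals. -/
def sgnLit (σ : Equiv.Perm (Fin N)) (ε : Fin N → Bool) :
    (Fin N × Bool) ≃ (Fin N × Bool) where
  toFun l := (σ l.1, xor l.2 (ε l.1))
  invFun l := (σ.symm l.1, xor l.2 (ε (σ.symm l.1)))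
  left_inv l := by
    rcases l with ⟨i, b⟩
    simp
  right_inv l := by
    rcases l with ⟨i, b⟩
    simp

lemma sgnAssign_apply_lit (σ : Equiv.Perm (Fin N)) (ε : Fin N → Bool) (a : Fin N → Bool)
    (l : Fin N × Bool) :
    (sgnAssign σ ε a) (sgnLit σ ε l).1 = (sgnLit σ ε l).2 ↔ a l.1 = l.2 := by
  rcases l with ⟨i, b⟩
  simp only [sgnAssign, sgnLit, Equiv.coe_fn_mk, Equiv.symm_apply_apply]
  cases a i <;> cases b <;> cases ε i <;> simp

/-- A signed permutation acting on proper clauses. -/
noncomputable def sgnClauseFun (σ : Equiv.Perm (Fin N)) (ε : Fin N → Bool)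
    (c : ProperClause N k) : ProperClause N k :=
  ⟨c.1.map (sgnLit σ ε).toEmbedding, by
    refine ⟨by simpa using c.2.1, ?_⟩
    rintro i ⟨h1, h2⟩
    simp only [Finset.mem_map, Equiv.coe_toEmbedding] at h1 h2
    obtain ⟨l1, hl1, e1⟩ := h1
    obtain ⟨l2, hl2, e2⟩ := h2
    rcases l1 with ⟨i1, b1⟩
    rcases l2 with ⟨i2, b2⟩
    simp only [sgnLit, Equiv.coe_fn_mk, Prod.mk.injEq] at e1 e2
    have hi : i1 = i2 := σ.injective (e1.1.trans e2.1.symm)
    subst hi
    have hb : b1 ≠ b2 := by
      intro hb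
      subst hb
      have := e1.2.symm.trans e2.2
      simp at this
    cases b1 <;> cases b2
    · exact hb rfl
    · exact c.2.2 i1 ⟨hl2, hl1⟩
    · exact c.2.2 i1 ⟨hl1, hl2⟩
    · exact hb rfl⟩

lemma sgnClauseFun_inv (σ : Equiv.Perm (Fin N)) (ε : Fin N → Bool) :
    ∃ τ : Equiv.Perm (Fin N), ∃ δ : Fin N → Bool, sgnLit τ δ = (sgnLit σ ε).symm := by
  refine ⟨σ.symm, fun i => ε (σ.symm i), ?_⟩
  ext l <;> rcases l with ⟨i, b⟩ <;> simp [sgnLit]

/-- The action on clauses is a bijection. -/
lemma sgnClauseFun_bijective (σ : Equiv.Perm (Fin N)) (ε : Fin N → Bool) :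
    Function.Bijective (sgnClauseFun (k := k) σ ε) := by
  rw [Function.bijective_iff_has_inverse]
  obtain ⟨τ, δ, h⟩ := sgnClauseFun_inv σ ε
  refine ⟨sgnClauseFun τ δ, ?_, ?_⟩
  · intro c
    apply Subtype.ext
    simp only [sgnClauseFun, h]
    ext l
    simp
  · intro c
    apply Subtype.ext
    simp only [sgnClauseFun, h]
    ext l
    simp

lemma holds_sgn (σ : Equiv.Perm (Fin N)) (ε : Fin N → Bool) (c : ProperClause N k)
    (a : Fin N → Bool) : (sgnClauseFun σ ε c).Holds (sgnAssign σ ε a) ↔ c.Holds a := by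
  unfold ProperClause.Holds sgnClauseFun
  simp only [Finset.mem_map, Equiv.coe_toEmbedding]
  constructor
  · rintro ⟨l, ⟨l0, hl0, rfl⟩, h⟩
    exact ⟨l0, hl0, (sgnAssign_apply_lit σ ε a l0).mp h⟩
  · rintro ⟨l0, hl0, h⟩
    exact ⟨sgnLit σ ε l0, ⟨l0, hl0, rfl⟩, (sgnAssign_apply_lit σ ε a l0).mpr h⟩

lemma map_inter_solSet (σ : Equiv.Perm (Fin N)) (ε : Fin N → Bool) (c : ProperClause N k)
    (S : Finset (Fin N → Bool)) :
    S.map (sgnAssign σ ε).toEmbedding ∩ solSet (sgnClauseFun σ ε c)
      = (S ∩ solSet c).map (sgnAssign σ ε).toEmbedding := by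
  ext x
  simp only [Finset.mem_inter, Finset.mem_map, Equiv.coe_toEmbedding, solSet, Finset.mem_filter,
    Finset.mem_univ, true_and]
  constructor
  · rintro ⟨⟨a, ha, rfl⟩, h⟩
    exact ⟨a, ⟨ha, (holds_sgn σ ε c a).mp h⟩, rfl⟩
  · rintro ⟨a, ⟨ha, h⟩, rfl⟩
    exact ⟨⟨a, ha, rfl⟩, (holds_sgn σ ε c a).mpr h⟩

/-- The iterated survival function is invariant under signed permutations. -/
lemma iter_map_eq (σ : Equiv.Perm (Fin N)) (ε : Fin N → Bool) (s : ℕ)
    (S : Finset (Fin N → Bool)) :
    (op (solSet : ProperClause N k → _))^[s] nonemptyInd (S.map (sgnAssign σ ε).toEmbedding)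
      = (op (solSet : ProperClause N k → _))^[s] nonemptyInd S := by
  induction s generalizing S with
  | zero =>
    simp [nonemptyInd, Finset.map_nonempty]
  | succ s ih =>
    rw [Function.iterate_succ_apply']
    unfold op
    congr 1
    have hb := sgnClauseFun_bijective (k := k) σ ε
    rw [← (Equiv.ofBijective _ hb).sum_comp]
    refine Finset.sum_congr rfl fun c _ => ?_
    simp only [Equiv.ofBijective_apply]
    rw [map_inter_solSet]
    exact ih _

/-- The survival function of a literal subcube does not depend on the literal. -/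
theorem iter_litSet_eq {s : ℕ} (l l' : Fin N × Bool) :
    (op (solSet : ProperClause N k → _))^[s] nonemptyInd (litSet l)
      = (op (solSet : ProperClause N k → _))^[s] nonemptyInd (litSet l') := by
  set σ : Equiv.Perm (Fin N) := Equiv.swap l.1 l'.1 with hσ
  set ε : Fin N → Bool := fun _ => xor l.2 l'.2 with hε
  have hmap : (litSet l).map (sgnAssign σ ε).toEmbedding = litSet l' := by
    ext x
    simp only [litSet, Finset.mem_map, Finset.mem_filter, Finset.mem_univ, true_and,
      Equiv.coe_toEmbedding]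
    constructor
    · rintro ⟨a, ha, rfl⟩
      have := (sgnAssign_apply_lit σ ε a l).mpr ha
      simpa [sgnLit, hσ, hε] using this
    · intro hx
      refine ⟨(sgnAssign σ ε).symm x, ?_, by simp⟩
      have h2 : (sgnAssign σ ε ((sgnAssign σ ε).symm x)) (sgnLit σ ε l).1 = (sgnLit σ ε l).2 := by
        simpa [sgnLit, hσ, hε] using hx
      exact (sgnAssign_apply_lit σ ε _ l).mp h2
  rw [← hmap, iter_map_eq]

end Vale.Agent.Lib.P170T
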