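import Vale.Agent.Lib.P170T.Life
import Vale.Agent.Lib.P170T.Sym
import Vale.Agent.Lib.P170.Compare

/-! Step 4 of the polynomial window: the expected total time during which a literal is dead is
small, because a variable can only die through a clause whose other literals are all dead. -/

set_option linter.unusedSectionVars false

namespace Vale.Agent.Lib.P170T


open Finset Vale.Agent.Lib.P170
open Classical

section Abstract

variable {α : Type*} [DecidableEq α]

private lemma mk_sub {T : (Finset α → ℝ) → (Finset α → ℝ)} (hT : IsMk T)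
    (g h : Finset α → ℝ) : T (fun S => g S - h S) = fun S => T g S - T h S :=
  isMk_sub hT g h

private lemma iter_sub {T : (Finset α → ℝ) → (Finset α → ℝ)} (hT : IsMk T) (s : ℕ)
    (g h : Finset α → ℝ) : T^[s] (fun S => g S - h S) = fun S => T^[s] g S - T^[s] h S :=
  mk_sub (hT.iterate s) g h

/-- The abstract telescoping bound, with all the operators commuting. -/
theorem abstract_gap {T0 Tp V W : (Finset α → ℝ) → (Finset α → ℝ)}
    (hT0 : IsMk T0) (hTp : IsMk Tp) (hcomm : Function.Commute Tp V)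
    {q pi A B : ℝ} (hq : 0 ≤ q) (hpi : 0 < pi) (hB : 0 ≤ B) (hA : 0 ≤ A)
    (g : Finset α → ℝ) (hg0 : ∀ S, 0 ≤ g S) (hg1 : ∀ S, g S ≤ 1)
    (hTg : ∀ s S, 0 ≤ Tp^[s] g S)
    (h0 : ∀ f S, T0 f S = Tp f S + q * (f S - V f S))
    (hp : ∀ S, g S - Tp g S = pi * (g S - W g S) + q * (g S - V g S))
    (hK0 : ∀ S, 0 ≤ g S - V g S)
    (hK : ∀ S, g S - V g S ≤ A + B * (g S - W g S)) (M : ℕ) (S : Finset α) :
    ∑ s ∈ range M, (T0^[s] g S - Tp^[s] g S)
      ≤ q * ((M:ℝ) ^ 2 / 2 * A + (M:ℝ) * (B / pi)) := by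
  set K : Finset α → ℝ := fun S => g S - V g S with hKdef
  set L : Finset α → ℝ := fun S => g S - W g S with hLdef
  set D : ℕ → Finset α → ℝ := fun s S => T0^[s] g S - Tp^[s] g S with hD
  -- one step of the recursion for `D`
  have hDstep : ∀ s, D (s + 1) = fun S => T0 (D s) S + q * Tp^[s] K S := by
    intro s
    funext S
    have e1 : T0 (D s) = fun S => T0 (T0^[s] g) S - T0 (Tp^[s] g) S := mk_sub hT0 _ _
    have e2 : Tp^[s] K = fun S => Tp^[s] g S - Tp^[s] (V g) S := iter_sub hTp s g (V g)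
    have e3 : Tp^[s] (V g) = V (Tp^[s] g) := (hcomm.iterate_left s g)
    have e4 := h0 (Tp^[s] g) S
    simp only [hD, Function.iterate_succ_apply']
    rw [e1, e2, e3]
    simp only []
    rw [e4]
    ring
  -- the sum of the `L` terms
  have hLsum : ∀ (m : ℕ) S, ∑ s ∈ range m, Tp^[s] L S ≤ 1 / pi := by
    intro m S
    have hle : ∀ S, L S ≤ (1 / pi) * (g S - Tp g S) := by
      intro S
      have e := hp S
      have h1 := hK0 S
      rw [e]
      have : (1 / pi) * (pi * (g S - W g S) + q * (g S - V g S))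
          = (g S - W g S) + (q / pi) * (g S - V g S) := by
        field_simp
      rw [this]
      have : 0 ≤ (q / pi) * (g S - V g S) := mul_nonneg (div_nonneg hq hpi.le) h1
      simp only [hLdef]
      linarith
    have hterm : ∀ s, Tp^[s] L S ≤ (1 / pi) * (Tp^[s] g S - Tp^[s + 1] g S) := by
      intro s
      have h1 := (hTp.iterate s).mono L (fun S => (1 / pi) * (g S - Tp g S)) hle S
      rw [(hTp.iterate s).smul, iter_sub hTp s g (Tp g)] at h1
      have e : Tp^[s] (Tp g) = Tp^[s + 1] g := (Function.iterate_succ_apply _ _ _).symm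
      rw [e] at h1
      exact h1
    calc ∑ s ∈ range m, Tp^[s] L S
        ≤ ∑ s ∈ range m, (1 / pi) * (Tp^[s] g S - Tp^[s + 1] g S) :=
          Finset.sum_le_sum fun s _ => hterm s
      _ = (1 / pi) * (Tp^[0] g S - Tp^[m] g S) := by
          rw [← Finset.mul_sum, Finset.sum_range_sub']
      _ ≤ 1 / pi := by
          have h1 := hTg m S
          have h2 : Tp^[0] g S ≤ 1 := hg1 S
          have h3 : 0 ≤ 1 / pi := by positivity
          nlinarith
  -- the sum of the `K` terms
  have hKsum : ∀ (m : ℕ) S, ∑ s ∈ range m, Tp^[s] K S ≤ (m:ℝ) * A + B / pi := by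
    intro m S
    have hterm : ∀ s, Tp^[s] K S ≤ A + B * Tp^[s] L S := by
      intro s
      have h1 := (hTp.iterate s).mono K (fun S => (fun _ => A) S + (fun S => B * L S) S) hK S
      rw [(hTp.iterate s).add, (hTp.iterate s).const, (hTp.iterate s).smul] at h1
      exact h1
    calc ∑ s ∈ range m, Tp^[s] K S ≤ ∑ s ∈ range m, (A + B * Tp^[s] L S) :=
          Finset.sum_le_sum fun s _ => hterm s
      _ = (m:ℝ) * A + B * ∑ s ∈ range m, Tp^[s] L S := by
          rw [Finset.sum_add_distrib, Finset.mul_sum]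
          simp
      _ ≤ (m:ℝ) * A + B * (1 / pi) := by
          have := mul_le_mul_of_nonneg_left (hLsum m S) hB
          linarith
      _ = (m:ℝ) * A + B / pi := by ring
  -- the running sums of `D`
  set E : ℕ → Finset α → ℝ := fun m S => ∑ s ∈ range m, D s S with hE
  have hD0 : ∀ S, D 0 S = 0 := fun S => by simp [hD]
  have hErec : ∀ m S, E (m + 1) S = T0 (E m) S + q * ∑ s ∈ range m, Tp^[s] K S := by
    intro m
    induction m with
    | zero =>
      intro S
      have e : E 0 = fun _ => (0:ℝ) := by funext S; simp [hE]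
      rw [e, hT0.const]
      simp [hE, hD0]
    | succ m ih =>
      intro S
      have e1 : E (m + 1 + 1) S = E (m + 1) S + D (m + 1) S := by
        simp only [hE]
        rw [Finset.sum_range_succ]
      have e2 : E (m + 1) = fun S => E m S + D m S := by
        funext S
        simp only [hE]
        rw [Finset.sum_range_succ]
      have e3 : T0 (E (m + 1)) S = T0 (E m) S + T0 (D m) S := by
        rw [e2, hT0.add]
      rw [e1, ih S, e3, hDstep m, Finset.sum_range_succ]
      ring
  have hEbound : ∀ m S, E m S ≤ q * ((m:ℝ) ^ 2 / 2 * A + (m:ℝ) * (B / pi)) := by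
    intro m
    induction m with
    | zero =>
      intro S
      simp [hE]
    | succ m ih =>
      intro S
      rw [hErec m S]
      have h1 := hT0.mono (E m) (fun _ => q * ((m:ℝ) ^ 2 / 2 * A + (m:ℝ) * (B / pi))) ih S
      rw [hT0.const] at h1
      have h2 := mul_le_mul_of_nonneg_left (hKsum m S) hq
      have hBp : 0 ≤ B / pi := div_nonneg hB hpi.le
      have hm : (0:ℝ) ≤ m := by positivity
      push_cast
      have h3 : q * (((m:ℝ) + 1) ^ 2 / 2 * A + ((m:ℝ) + 1) * (B / pi))
          - (q * ((m:ℝ) ^ 2 / 2 * A + (m:ℝ) * (B / pi)) + q * ((m:ℝ) * A + B / pi))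
          = q * (A / 2) := by ring
      have h4 : 0 ≤ q * (A / 2) := by positivity
      linarith
  exact hEbound M S

end Abstract

/-- The numerical comparison of the two killing probabilities. -/
lemma kappa_numeric {n j D : ℕ} (hn : j + 1 ≤ n) (hD : D ≤ n) {a : ℝ} (ha0 : 0 < a)
    (ha : 2 * (j:ℝ) / n ≤ a) :
    (D.choose j : ℝ) / Fintype.card (ProperClause n j)
      ≤ a ^ j + (4 / a) * ((D.choose (j + 1) : ℝ) / Fintype.card (ProperClause n (j + 1))) := by
  have hnpos : (0:ℝ) < n := by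
    have : 0 < n := by omega
    exact_mod_cast this
  have hC1 : (0:ℝ) < (n.choose j : ℝ) := by exact_mod_cast Nat.choose_pos (by omega)
  have hC2 : (0:ℝ) < (n.choose (j + 1) : ℝ) := by exact_mod_cast Nat.choose_pos hn
  have hp1 : (0:ℝ) < 2 ^ j := by positivity
  rw [card_clause, card_clause]
  push_cast
  have hnn : (0:ℝ) ≤ (4 / a) * ((D.choose (j + 1) : ℝ) / (2 ^ (j + 1) * (n.choose (j + 1) : ℝ))) := by
    positivity
  have haj : 0 ≤ a ^ j := by positivity
  by_cases hDj : D < j
  · rw [Nat.choose_eq_zero_of_lt hDj]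
    simp only [Nat.cast_zero, zero_div]
    linarith
  push Not at hDj
  set x : ℝ := (D.choose j : ℝ) / (2 ^ j * (n.choose j : ℝ)) with hx
  have hx0 : 0 ≤ x := by positivity
  have hid1 : (D.choose (j + 1) : ℝ) * (j + 1) = (D.choose j : ℝ) * ((D:ℝ) - j) := by
    have := Nat.choose_succ_right_eq D j
    have h2 : ((D - j : ℕ) : ℝ) = (D:ℝ) - j := by
      rw [Nat.cast_sub hDj]
    rw [← h2]
    exact_mod_cast this
  have hid2 : (n.choose (j + 1) : ℝ) * (j + 1) = (n.choose j : ℝ) * ((n:ℝ) - j) := by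
    have := Nat.choose_succ_right_eq n j
    have h2 : ((n - j : ℕ) : ℝ) = (n:ℝ) - j := by
      rw [Nat.cast_sub (by omega)]
    rw [← h2]
    exact_mod_cast this
  have hnj : (0:ℝ) < (n:ℝ) - j := by
    have : (j:ℝ) + 1 ≤ n := by exact_mod_cast hn
    linarith
  have hj1 : (0:ℝ) < (j:ℝ) + 1 := by positivity
  have hy : (D.choose (j + 1) : ℝ) / (2 ^ (j + 1) * (n.choose (j + 1) : ℝ))
      = x * (((D:ℝ) - j) / (2 * ((n:ℝ) - j))) := by
    have e1 : (D.choose (j + 1) : ℝ) = (D.choose j : ℝ) * ((D:ℝ) - j) / (j + 1) := by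
      rw [← hid1]
      field_simp
    have e2 : (n.choose (j + 1) : ℝ) = (n.choose j : ℝ) * ((n:ℝ) - j) / (j + 1) := by
      rw [← hid2]
      field_simp
    rw [hx, e1, e2, pow_succ]
    field_simp
  rw [hy]
  by_cases hcase : a * ((n:ℝ) - j) ≤ 2 * ((D:ℝ) - j)
  · have h1 : a / 4 ≤ ((D:ℝ) - j) / (2 * ((n:ℝ) - j)) := by
      rw [div_le_div_iff₀ (by norm_num) (by positivity)]
      nlinarith
    have h2 : (4 / a) * (x * (((D:ℝ) - j) / (2 * ((n:ℝ) - j)))) ≥ (4 / a) * (x * (a / 4)) := by
      apply mul_le_mul_of_nonneg_left _ (by positivity)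
      exact mul_le_mul_of_nonneg_left h1 hx0
    have h3 : (4 / a) * (x * (a / 4)) = x := by
      field_simp
    linarith
  · push Not at hcase
    have hDn : (D:ℝ) ≤ n := by exact_mod_cast hD
    have hjn : j ≤ n := by omega
    have hratio := Vale.Agent.Lib.P170.choose_mul_pow_le hD j
    have h' : (D.choose j : ℝ) * (n:ℝ) ^ j ≤ (n.choose j : ℝ) * (D:ℝ) ^ j := by
      exact_mod_cast hratio
    have hx1 : x ≤ ((D:ℝ) / (2 * n)) ^ j := by
      rw [hx, div_pow, mul_pow, div_le_div_iff₀ (by positivity) (by positivity)]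
      calc (D.choose j : ℝ) * (2 ^ j * (n:ℝ) ^ j) = 2 ^ j * ((D.choose j : ℝ) * (n:ℝ) ^ j) := by ring
        _ ≤ 2 ^ j * ((n.choose j : ℝ) * (D:ℝ) ^ j) := by
            apply mul_le_mul_of_nonneg_left h' (by positivity)
        _ = _ := by ring
    have hb : (D:ℝ) / (2 * n) ≤ a := by
      rw [div_le_iff₀ (by positivity)]
      have h5 : 2 * (j:ℝ) ≤ a * n := by
        rwa [div_le_iff₀ hnpos] at ha
      have h6 : a * (j:ℝ) ≥ 0 := by positivity
      nlinarith
    have hb0 : 0 ≤ (D:ℝ) / (2 * n) := by positivity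
    have hx2 : x ≤ a ^ j := hx1.trans (pow_le_pow_left₀ hb0 hb j)
    have hD' : (D:ℝ) - j ≥ 0 := by
      have : (j:ℝ) ≤ D := by exact_mod_cast hDj
      linarith
    have h7 : 0 ≤ (4 / a) * (x * (((D:ℝ) - j) / (2 * ((n:ℝ) - j)))) := by positivity
    linarith

/-- The killing comparison on solution sets. -/
lemma kappa_set {n j : ℕ} (hn : j + 1 ≤ n) {a : ℝ} (ha0 : 0 < a) (ha : 2 * (j:ℝ) / n ≤ a)
    (S : Finset (Fin n → Bool)) :
    nonemptyInd S - opK n j nonemptyInd S
      ≤ a ^ j + (4 / a) * (nonemptyInd S - opK n (j + 1) nonemptyInd S) := by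
  have hc1 : 0 < Fintype.card (ProperClause n j) := card_clause_pos (by omega)
  have hc2 : 0 < Fintype.card (ProperClause n (j + 1)) := card_clause_pos hn
  by_cases hS : S.Nonempty
  · have e0 : nonemptyInd S = 1 := by simp [nonemptyInd, hS]
    simp only [opK]
    rw [e0, op_nonemptyInd hS j hc1, op_nonemptyInd hS (j + 1) hc2]
    have := kappa_numeric hn (card_dead_le hS) ha0 ha
    simp only [sub_sub_cancel]
    exact this
  · have hS0 : S = ∅ := Finset.not_nonempty_iff_eq_empty.mp hS
    subst hS0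
    have h1 := (op_valid (solSet : ProperClause n j → _) hc1 valid_nonemptyInd).empty
    have h2 := (op_valid (solSet : ProperClause n (j + 1) → _) hc2 valid_nonemptyInd).empty
    have h3 := valid_nonemptyInd (α := Fin n → Bool) |>.empty
    simp only [opK]
    rw [h1, h2, h3]
    have : 0 ≤ a ^ j := by positivity
    simp only [sub_zero, mul_zero, add_zero]
    exact this

/-- The comparison with the one-variable operators. -/
theorem gap_bound {n j : ℕ} (hn : j + 1 ≤ n) {a : ℝ} (ha0 : 0 < a) (ha : 2 * (j:ℝ) / n ≤ a)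
    (M : ℕ) :
    ∑ s ∈ range M, ((opK (n + 1) (j + 1))^[s] nonemptyInd univ
        - (opK (n + 1) (j + 1))^[s] nonemptyInd (litSet (Fin.last n, true)))
      ≤ (((j:ℝ) + 1) / (2 * ((n:ℝ) + 1))) *
        ((M:ℝ) ^ 2 / 2 * a ^ j + (M:ℝ) * ((4 / a) / (((n:ℝ) - j) / ((n:ℝ) + 1)))) := by
  have hc0 : (0:ℝ) < Fintype.card (ProperClause n (j + 1)) := by
    exact_mod_cast card_clause_pos hn
  have hc1 : (0:ℝ) < Fintype.card (ProperClause n j) := by
    exact_mod_cast card_clause_pos (by omega)
  have hc2 : (0:ℝ) < Fintype.card (ProperClause (n + 1) (j + 1)) := by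
    exact_mod_cast card_clause_pos (by omega)
  set π₀ : ℝ := (Fintype.card (ProperClause n (j + 1)) : ℝ) /
      Fintype.card (ProperClause (n + 1) (j + 1)) with hπ
  set q : ℝ := (Fintype.card (ProperClause n j) : ℝ) /
      Fintype.card (ProperClause (n + 1) (j + 1)) with hq
  have hq' : q = ((j:ℝ) + 1) / (2 * ((n:ℝ) + 1)) := by
    rw [hq]
    exact card_ratio n j (by omega)
  have hsum : π₀ + 2 * q = 1 := by
    have := card_sum n j
    rw [hπ, hq]
    field_simp
    linarith
  have hπ' : π₀ = ((n:ℝ) - j) / ((n:ℝ) + 1) := by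
    have hn1 : (0:ℝ) < (n:ℝ) + 1 := by positivity
    have : π₀ = 1 - 2 * q := by linarith
    rw [this, hq']
    field_simp
    ring
  have hπpos : 0 < π₀ := div_pos hc0 hc2
  have hqpos : 0 ≤ q := (div_pos hc1 hc2).le
  set T0 := op (solProj : ProperClause (n + 1) (j + 1) → _) with hT0
  set Tp := op (solExt : ProperClause (n + 1) (j + 1) → _) with hTp
  have hcN : 0 < Fintype.card (ProperClause (n + 1) (j + 1)) := card_clause_pos (by omega)
  have hT0k : IsMk T0 := op_isMk _ hcN
  have hTpk : IsMk Tp := op_isMk _ hcN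
  have hcomm : Function.Commute Tp (opK n j) := op_comm _ _
  have h0 : ∀ f S, T0 f S = Tp f S + q * (f S - opK n j f S) := by
    intro f S
    rw [hT0, hTp, opProj_eq f S hn hπ hq, opExt_eq f S hn hπ hq]
    ring
  have hp : ∀ S, nonemptyInd S - Tp nonemptyInd S
      = π₀ * (nonemptyInd S - opK n (j + 1) nonemptyInd S)
        + q * (nonemptyInd S - opK n j nonemptyInd S) := by
    intro S
    rw [hTp, opExt_eq nonemptyInd S hn hπ hq]
    have e : (1:ℝ) - q = π₀ + q := by linarith
    have e2 : nonemptyInd S - q * nonemptyInd S = (π₀ + q) * nonemptyInd S := by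
      rw [← e]; ring
    simp only [opK]
    linarith
  have hK0 : ∀ S, 0 ≤ nonemptyInd S - opK n j nonemptyInd S := by
    intro S
    have := op_le_self (solSet : ProperClause n j → _) (card_clause_pos (by omega))
      (valid_nonemptyInd (α := Fin n → Bool)).mono S
    simp only [opK]
    linarith
  have hg0 : ∀ S : Finset (Fin n → Bool), 0 ≤ nonemptyInd S := valid_nonemptyInd.nonneg
  have hg1 : ∀ S : Finset (Fin n → Bool), nonemptyInd S ≤ 1 := valid_nonemptyInd.le_one
  have hTg : ∀ s S, 0 ≤ Tp^[s] nonemptyInd S := fun s S =>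
    (iter_valid _ hcN (valid_nonemptyInd (α := Fin n → Bool)) s).nonneg S
  have hmain := abstract_gap hT0k hTpk hcomm hqpos hπpos (by positivity : (0:ℝ) ≤ 4 / a)
    (by positivity : (0:ℝ) ≤ a ^ j) nonemptyInd hg0 hg1 hTg h0 hp hK0
    (fun S => kappa_set hn ha0 ha S) M univ
  have hterm : ∀ s, (opK (n + 1) (j + 1))^[s] nonemptyInd univ
        - (opK (n + 1) (j + 1))^[s] nonemptyInd (litSet (Fin.last n, true))
      ≤ T0^[s] nonemptyInd univ - Tp^[s] nonemptyInd univ := by
    intro s
    have h1 : (opK (n + 1) (j + 1))^[s] nonemptyInd univ ≤ T0^[s] nonemptyInd univ :=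
      full_le_proj s univ univ (fun _ _ => Finset.mem_univ _)
    have h2 : Tp^[s] nonemptyInd univ
        ≤ (opK (n + 1) (j + 1))^[s] nonemptyInd (litSet (Fin.last n, true)) :=
      ext_le_full s univ (litSet (Fin.last n, true)) (fun a _ => by simp [litSet])
    linarith
  calc _ ≤ ∑ s ∈ range M, (T0^[s] nonemptyInd univ - Tp^[s] nonemptyInd univ) :=
        Finset.sum_le_sum fun s _ => hterm s
    _ ≤ q * ((M:ℝ) ^ 2 / 2 * a ^ j + (M:ℝ) * ((4 / a) / π₀)) := hmain
    _ = _ := by rw [hq', hπ']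

/-- Averaging a function which is constant on the literal subcubes. -/
private lemma op_litSet_const {N : ℕ} (hN : 0 < N) (G : Finset (Fin N → Bool) → ℝ)
    (l : Fin N × Bool) (h : ∀ l', G (litSet l') = G (litSet l)) :
    op (litSet : Fin N × Bool → _) G univ = G (litSet l) := by
  have hcard : (Fintype.card (Fin N × Bool) : ℝ) ≠ 0 := by
    have : 0 < Fintype.card (Fin N × Bool) := by simp [hN]
    exact_mod_cast this.ne'
  unfold op
  simp only [Finset.univ_inter]
  rw [Finset.sum_congr rfl (fun l' _ => h l')]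
  simp only [Finset.sum_const, Finset.card_univ, nsmul_eq_mul]
  field_simp

/-- The average over literals of the survival probability equals that of any one literal. -/
lemma iter_op_litSet {N k : ℕ} (hN : 0 < N) (s : ℕ) (l : Fin N × Bool) :
    (op (solSet : ProperClause N k → _))^[s]
        (op (litSet : Fin N × Bool → _) nonemptyInd) univ
      = (op (solSet : ProperClause N k → _))^[s] nonemptyInd (litSet l) := by
  have hcomm : Function.Commute (op (solSet : ProperClause N k → _))
      (op (litSet : Fin N × Bool → _)) := op_comm _ _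
  have e : (op (solSet : ProperClause N k → _))^[s]
      (op (litSet : Fin N × Bool → _) nonemptyInd)
      = op (litSet : Fin N × Bool → _) ((op (solSet : ProperClause N k → _))^[s] nonemptyInd) :=
    hcomm.iterate_left s nonemptyInd
  rw [e]
  exact op_litSet_const hN _ l (fun l' => iter_litSet_eq l' l)

/-- **Step 4** in the form used by the variance bound. -/
theorem G_le {n j M : ℕ} (hj : 2 ≤ j) (hn : 2 * j + 1 ≤ n) {a : ℝ} (ha0 : 0 < a) (ha1 : a ≤ 1)
    (han : 2 * ((j:ℝ) + 1) ≤ a * n) :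
    ∑ s ∈ range M, (curve (solSet : ProperClause (n + 1) (j + 1) → _) univ s
        - (op (solSet : ProperClause (n + 1) (j + 1) → _))^[s]
            (op (litSet : Fin (n + 1) × Bool → _) nonemptyInd) univ)
      ≤ ((j:ℝ) + 1) / (2 * ((n:ℝ) + 1)) * M * (a ^ j * M + 8 / a) := by
  have hn' : j + 1 ≤ n := by omega
  have hnR : (2:ℝ) * j + 1 ≤ n := by exact_mod_cast hn
  have hnpos : (0:ℝ) < n := by linarith [(Nat.cast_nonneg j : (0:ℝ) ≤ j)]
  have ha : 2 * (j:ℝ) / n ≤ a := by
    rw [div_le_iff₀ hnpos]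
    linarith
  have hmain := gap_bound hn' ha0 ha M
  have hq : (0:ℝ) ≤ ((j:ℝ) + 1) / (2 * ((n:ℝ) + 1)) := by positivity
  have hM : (0:ℝ) ≤ (M:ℝ) := by positivity
  have hpi : (1:ℝ) / 2 ≤ ((n:ℝ) - j) / ((n:ℝ) + 1) := by
    rw [div_le_div_iff₀ (by norm_num) (by positivity)]
    linarith
  have hpi0 : (0:ℝ) < ((n:ℝ) - j) / ((n:ℝ) + 1) := by linarith
  have h4 : (4 / a) / (((n:ℝ) - j) / ((n:ℝ) + 1)) ≤ 8 / a := by
    rw [div_le_iff₀ hpi0]
    have : 8 / a * (((n:ℝ) - j) / ((n:ℝ) + 1)) ≥ 8 / a * (1 / 2) :=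
      mul_le_mul_of_nonneg_left hpi (by positivity)
    have e : 8 / a * (1 / 2) = 4 / a := by ring
    linarith
  have haj : 0 ≤ a ^ j := by positivity
  have hlast : ((M:ℝ) ^ 2 / 2 * a ^ j + (M:ℝ) * ((4 / a) / (((n:ℝ) - j) / ((n:ℝ) + 1))))
      ≤ (M:ℝ) * (a ^ j * M + 8 / a) := by
    have h5 := mul_le_mul_of_nonneg_left h4 hM
    have h6 : (M:ℝ) ^ 2 / 2 * a ^ j ≤ (M:ℝ) * (a ^ j * M) := by
      have : 0 ≤ (M:ℝ) ^ 2 * a ^ j := by positivity
      nlinarith
    nlinarith
  have hfinal := mul_le_mul_of_nonneg_left hlast hq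
  have hterm : ∀ s, curve (solSet : ProperClause (n + 1) (j + 1) → _) univ s
        - (op (solSet : ProperClause (n + 1) (j + 1) → _))^[s]
            (op (litSet : Fin (n + 1) × Bool → _) nonemptyInd) univ
      = (opK (n + 1) (j + 1))^[s] nonemptyInd univ
        - (opK (n + 1) (j + 1))^[s] nonemptyInd (litSet (Fin.last n, true)) := by
    intro s
    rw [iter_op_litSet (by omega) s (Fin.last n, true)]
    rfl
  rw [Finset.sum_congr rfl (fun s _ => hterm s)]
  calc _ ≤ _ := hmain
    _ ≤ _ := hfinal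
    _ = _ := by ring

end Vale.Agent.Lib.P170T
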