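import Vale.Agent.Lib.P170.Main

/-!
Positivity of the threshold of random `k`-SAT for `k ≥ 3`, by Hall's theorem: a formula whose clauses
have a system of distinct variables is satisfiable, and a union bound shows that for `m ≤ n / 6`
clauses such a system exists with probability at least `1 / 2`.
-/

set_option linter.unusedSectionVars false

namespace Vale.Agent.Lib.P170T

open Finset Vale.Agent.Lib.P170

open Classical

variable {n k m : ℕ}

/-- The variables of a clause. -/
noncomputable def vars (c : ProperClause n k) : Finset (Fin n) := c.1.image Prod.fst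

lemma mem_vars {c : ProperClause n k} {i : Fin n} : i ∈ vars c ↔ ∃ b, (i, b) ∈ c.1 := by
  simp [vars]

lemma lit_eq {c : ProperClause n k} {i : Fin n} {b b' : Bool} (h : (i, b) ∈ c.1)
    (h' : (i, b') ∈ c.1) : b = b' := by
  have h2 := c.2.2 i
  cases b <;> cases b'
  · rfl
  · exact absurd ⟨h', h⟩ h2
  · exact absurd ⟨h, h'⟩ h2
  · rfl

lemma card_vars (c : ProperClause n k) : (vars c).card = k := by
  rw [vars, Finset.card_image_of_injOn, c.2.1]
  rintro ⟨i, b⟩ h1 ⟨i', b'⟩ h2 h3
  simp only at h3
  subst h3
  have := lit_eq (c := c) h1 h2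
  rw [this]

/-- A system of distinct variables makes a formula satisfiable. -/
lemma sat_of_inj {F : Fin m → ProperClause n k} {f : Fin m → Fin n} (hf : Function.Injective f)
    (hf2 : ∀ j, f j ∈ vars (F j)) : Satisfiable F := by
  choose b hb using fun j => mem_vars.1 (hf2 j)
  refine ⟨fun i => if h : ∃ j, f j = i then b h.choose else false, fun j => ⟨(f j, b j), hb j, ?_⟩⟩
  have h : ∃ j', f j' = f j := ⟨j, rfl⟩
  simp only [dif_pos h]
  have : h.choose = j := hf h.choose_spec
  rw [this]

/-- An unsatisfiable formula has a set `J` of clauses with variables in a smaller set `V`. -/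
lemma exists_bad {F : Fin m → ProperClause n k} (h : ¬ Satisfiable F) (hm : m ≤ n) :
    ∃ J : Finset (Fin m), ∃ V : Finset (Fin n), V.card + 1 = J.card ∧ ∀ j ∈ J, vars (F j) ⊆ V := by
  have h1 : ¬ ∀ s : Finset (Fin m), s.card ≤ (s.biUnion fun j => vars (F j)).card := by
    intro hall
    obtain ⟨f, hf, hf2⟩ :=
      (Finset.all_card_le_biUnion_card_iff_exists_injective fun j => vars (F j)).1 hall
    exact h (sat_of_inj hf hf2)
  push Not at h1
  obtain ⟨J, hJ⟩ := h1
  have hJm : J.card ≤ n := by
    have := Finset.card_le_univ J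
    simp only [Fintype.card_fin] at this
    omega
  obtain ⟨V, hV1, -, hV3⟩ := Finset.exists_subsuperset_card_eq
    (Finset.subset_univ (J.biUnion fun j => vars (F j))) (n := J.card - 1) (by omega)
    (by simp only [Finset.card_univ, Fintype.card_fin]; omega)
  refine ⟨J, V, by omega, ?_⟩
  intro j hj
  exact (Finset.subset_biUnion_of_mem (fun j => vars (F j)) hj).trans hV1

/-- The clauses with variables in `V`. -/
noncomputable def inV (k : ℕ) (V : Finset (Fin n)) : Finset (ProperClause n k) :=
  univ.filter fun c => vars c ⊆ V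

/-- The clause on a set of variables with given signs. -/
noncomputable def clauseOf (U : Finset (Fin n)) (hU : U.card = k) (g : U → Bool) :
    ProperClause n k :=
  ⟨U.attach.image fun u => (u.1, g u), by
    rw [Finset.card_image_of_injective]
    · simpa using hU
    · intro u u' h
      exact Subtype.ext (congrArg Prod.fst h), by
    intro i ⟨h1, h2⟩
    simp only [Finset.mem_image, Finset.mem_attach, true_and, Prod.mk.injEq, Subtype.exists] at h1 h2
    obtain ⟨a, ha, rfl, h3⟩ := h1
    obtain ⟨a', ha', h4, h5⟩ := h2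
    subst h4
    rw [h3] at h5
    simp at h5⟩

lemma card_fiber (U : Finset (Fin n)) (hU : U.card = k) :
    (univ.filter fun c : ProperClause n k => vars c = U).card = 2 ^ k := by
  have hcard : (univ : Finset (U → Bool)).card = 2 ^ k := by
    rw [Finset.card_univ, Fintype.card_fun, Fintype.card_bool, Fintype.card_coe, hU]
  rw [← hcard]
  symm
  refine Finset.card_bij (fun g _ => clauseOf U hU g) ?_ ?_ ?_
  · intro g _
    simp only [Finset.mem_filter, Finset.mem_univ, true_and]
    ext i
    rw [mem_vars]
    constructor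
    · rintro ⟨b, hb⟩
      simp only [clauseOf, Finset.mem_image, Finset.mem_attach, true_and, Prod.mk.injEq] at hb
      obtain ⟨u, rfl, _⟩ := hb
      exact u.2
    · intro hi
      refine ⟨g ⟨i, hi⟩, ?_⟩
      simp only [clauseOf, Finset.mem_image, Finset.mem_attach, true_and, Prod.mk.injEq]
      exact ⟨⟨i, hi⟩, rfl, rfl⟩
  · intro g _ g' _ h
    funext u
    have h1 : (u.1, g u) ∈ (clauseOf U hU g).1 := by
      simp [clauseOf]
    rw [h] at h1
    simp only [clauseOf, Finset.mem_image, Finset.mem_attach, true_and, Prod.mk.injEq] at h1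
    obtain ⟨u', h2, h3⟩ := h1
    have : u' = u := Subtype.ext h2
    rw [this] at h3
    exact h3.symm
  · intro c hc
    simp only [Finset.mem_filter, Finset.mem_univ, true_and] at hc
    refine ⟨fun u => decide ((u.1, true) ∈ c.1), Finset.mem_univ _, ?_⟩
    apply Subtype.ext
    ext ⟨i, b⟩
    simp only [clauseOf, Finset.mem_image, Finset.mem_attach, true_and, Prod.mk.injEq]
    constructor
    · rintro ⟨u, rfl, rfl⟩
      have hu : u.1 ∈ vars c := by rw [hc]; exact u.2
      obtain ⟨b', hb'⟩ := mem_vars.1 hu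
      cases b' with
      | true =>
        have : (u.1, true) ∈ c.1 := hb'
        simpa [this] using this
      | false =>
        have h5 : (u.1, true) ∉ c.1 := fun h6 => by
          have := lit_eq (c := c) hb' h6
          simp at this
        simpa [h5] using hb'
    · intro h
      have hi : i ∈ U := by
        rw [← hc]
        exact mem_vars.2 ⟨b, h⟩
      refine ⟨⟨i, hi⟩, rfl, ?_⟩
      cases b with
      | true => simpa using h
      | false =>
        have h5 : (i, true) ∉ c.1 := fun h6 => by
          have := lit_eq (c := c) h h6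
          simp at this
        simpa using h5

lemma card_inV (V : Finset (Fin n)) : (inV k V).card = 2 ^ k * V.card.choose k := by
  have h1 : ∀ c ∈ inV k V, vars c ∈ Finset.powersetCard k V := by
    intro c hc
    simp only [inV, Finset.mem_filter, Finset.mem_univ, true_and] at hc
    exact Finset.mem_powersetCard.2 ⟨hc, card_vars c⟩
  rw [Finset.card_eq_sum_card_fiberwise h1]
  have h2 : ∀ U ∈ Finset.powersetCard k V,
      ((inV k V).filter fun c => vars c = U).card = 2 ^ k := by
    intro U hU
    obtain ⟨hU1, hU2⟩ := Finset.mem_powersetCard.1 hU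
    rw [← card_fiber U hU2]
    congr 1
    ext c
    simp only [inV, Finset.mem_filter, Finset.mem_univ, true_and]
    constructor
    · exact fun h => h.2
    · intro h
      exact ⟨h ▸ hU1, h⟩
  rw [Finset.sum_congr rfl h2, Finset.sum_const, Finset.card_powersetCard, smul_eq_mul, mul_comm]

lemma card_clauses (hk : k ≤ n) : Fintype.card (ProperClause n k) = 2 ^ k * n.choose k := by
  have h1 : inV k (univ : Finset (Fin n)) = univ := by
    ext c
    simp [inV]
  have h2 := card_inV (k := k) (univ : Finset (Fin n))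
  rw [h1, Finset.card_univ, Finset.card_univ, Fintype.card_fin] at h2
  exact h2

lemma choose_mul_pow_le {v : ℕ} (hv : v ≤ n) (k : ℕ) :
    v.choose k * n ^ k ≤ n.choose k * v ^ k := by
  induction k with
  | zero => simp
  | succ k ih =>
    have h1 := Nat.choose_succ_right_eq v k
    have h2 := Nat.choose_succ_right_eq n k
    have h3 : (v - k) * n ≤ (n - k) * v := by
      by_cases hvk : k ≤ v
      · have hnk : k ≤ n := hvk.trans hv
        obtain ⟨a, rfl⟩ := Nat.exists_eq_add_of_le hvk
        obtain ⟨b, hb⟩ := Nat.exists_eq_add_of_le hv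
        subst hb
        have e1 : k + a - k = a := by omega
        have e2 : k + a + b - k = a + b := by omega
        rw [e1, e2]
        nlinarith [Nat.zero_le (a * b), Nat.zero_le (k * b), Nat.zero_le (a * a), Nat.zero_le (a * k)]
      · have : v - k = 0 := by omega
        rw [this]
        simp
    have h4 : v.choose (k + 1) * n ^ (k + 1) * (k + 1) ≤ n.choose (k + 1) * v ^ (k + 1) * (k + 1) := by
      calc v.choose (k + 1) * n ^ (k + 1) * (k + 1)
          = (v.choose (k + 1) * (k + 1)) * n ^ (k + 1) := by ring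
        _ = (v.choose k * (v - k)) * n ^ (k + 1) := by rw [h1]
        _ = (v.choose k * n ^ k) * ((v - k) * n) := by ring
        _ ≤ (n.choose k * v ^ k) * ((n - k) * v) := Nat.mul_le_mul ih h3
        _ = (n.choose k * (n - k)) * v ^ (k + 1) := by ring
        _ = (n.choose (k + 1) * (k + 1)) * v ^ (k + 1) := by rw [h2]
        _ = n.choose (k + 1) * v ^ (k + 1) * (k + 1) := by ring
    exact Nat.le_of_mul_le_mul_right h4 (Nat.succ_pos k)

/-- The fraction of clauses with variables in `V`. -/
lemma frac_inV (hk : k ≤ n) (hn : 0 < n) (V : Finset (Fin n)) :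
    ((inV k V).card : ℝ) / Fintype.card (ProperClause n k) ≤ ((V.card : ℝ) / n) ^ k := by
  have hch : 0 < n.choose k := Nat.choose_pos hk
  have hv : V.card ≤ n := by
    have := Finset.card_le_univ V
    simpa using this
  rw [card_inV, card_clauses hk]
  push_cast
  have hn' : (0:ℝ) < n := by exact_mod_cast hn
  have hch' : (0:ℝ) < n.choose k := by exact_mod_cast hch
  have h2 : (0:ℝ) < 2 ^ k := by positivity
  rw [div_pow, mul_div_mul_left _ _ (ne_of_gt h2), div_le_div_iff₀ hch' (by positivity),
    mul_comm ((V.card : ℝ) ^ k)]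
  exact_mod_cast choose_mul_pow_le hv k

/-- The formulas whose clauses indexed by `J` have variables in `V`. -/
noncomputable def badSet (k : ℕ) (J : Finset (Fin m)) (V : Finset (Fin n)) :
    Finset (Fin m → ProperClause n k) :=
  Fintype.piFinset fun j => if j ∈ J then inV k V else univ

lemma mem_badSet {J : Finset (Fin m)} {V : Finset (Fin n)} {F : Fin m → ProperClause n k} :
    F ∈ badSet k J V ↔ ∀ j ∈ J, vars (F j) ⊆ V := by
  simp only [badSet, Fintype.mem_piFinset]
  constructor
  · intro h j hj
    have := h j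
    rw [if_pos hj] at this
    simpa [inV] using this
  · intro h j
    by_cases hj : j ∈ J
    · rw [if_pos hj]
      simpa [inV] using h j hj
    · rw [if_neg hj]
      exact Finset.mem_univ _

lemma frac_badSet (hc : 0 < Fintype.card (ProperClause n k)) (J : Finset (Fin m))
    (V : Finset (Fin n)) :
    ((badSet k J V).card : ℝ) / (Fintype.card (ProperClause n k) : ℝ) ^ m =
      (((inV k V).card : ℝ) / Fintype.card (ProperClause n k)) ^ J.card := by
  have hc' : (Fintype.card (ProperClause n k) : ℝ) ≠ 0 := by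
    exact_mod_cast ne_of_gt hc
  simp only [badSet, Fintype.card_piFinset]
  push_cast
  have h1 : (Fintype.card (ProperClause n k) : ℝ) ^ m =
      ∏ _j : Fin m, (Fintype.card (ProperClause n k) : ℝ) := by
    simp
  rw [h1, ← Finset.prod_div_distrib]
  have h2 : ∀ j : Fin m, (((if j ∈ J then inV k V else univ : Finset (ProperClause n k)).card : ℝ)) /
      (Fintype.card (ProperClause n k) : ℝ) =
      if j ∈ J then ((inV k V).card : ℝ) / Fintype.card (ProperClause n k) else 1 := by
    intro j
    by_cases hj : j ∈ J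
    · simp [hj]
    · simp only [hj, if_false, Finset.card_univ]
      exact div_self hc'
  simp only [h2]
  rw [Finset.prod_ite_mem, Finset.prod_const, Finset.univ_inter]

/-- The analytic bound on one term of the union bound. -/
lemma term_bound (hn : 0 < n) (s : ℕ) (hs : s + 1 ≤ m) (hm : (m : ℝ) ≤ n / 6) :
    (m.choose (s + 1) : ℝ) * ((n.choose s : ℝ) * (((((s : ℝ) + 1) / n) ^ 3) ^ (s + 1))) ≤
      (1 / 2) ^ (s + 1) / n := by
  have hn' : (0:ℝ) < n := by exact_mod_cast hn
  set T : ℝ := (s : ℝ) + 1 with hT
  have hT0 : 0 < T := by positivity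
  have hTm : T ≤ m := by
    rw [hT]
    exact_mod_cast hs
  have hf1 : (0:ℝ) < ((s + 1).factorial : ℝ) := by exact_mod_cast Nat.factorial_pos _
  have hf2 : (0:ℝ) < (s.factorial : ℝ) := by exact_mod_cast Nat.factorial_pos _
  have hff : ((s + 1).factorial : ℝ) = T * s.factorial := by
    rw [Nat.factorial_succ]
    push_cast
    ring
  have hA : (m.choose (s + 1) : ℝ) ≤ (m : ℝ) ^ (s + 1) / (s + 1).factorial :=
    Nat.choose_le_pow_div (s + 1) m
  have hB : (n.choose s : ℝ) ≤ (n : ℝ) ^ s / s.factorial := Nat.choose_le_pow_div s n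
  -- the exponential bound
  have hE : T ^ (s + 1) / (s + 1).factorial ≤ 3 ^ (s + 1) := by
    have h1 := Real.pow_div_factorial_le_exp T hT0.le (s + 1)
    have h2 : Real.exp T = Real.exp 1 ^ (s + 1) := by
      rw [← Real.exp_nat_mul]
      congr 1
      rw [hT]
      push_cast
      ring
    have h3 : Real.exp 1 ^ (s + 1) ≤ 3 ^ (s + 1) :=
      pow_le_pow_left₀ (Real.exp_pos 1).le Real.exp_one_lt_three.le _
    linarith
  set Q : ℝ := T ^ (s + 1) / (s + 1).factorial with hQ
  have hQ0 : 0 ≤ Q := by positivity
  have hmpow : (m : ℝ) ^ (s + 1) ≤ (n / 6) ^ (s + 1) := pow_le_pow_left₀ (by positivity) hm _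
  have hTpow : T ^ (s + 1) ≤ (n / 6) ^ (s + 1) := pow_le_pow_left₀ hT0.le (hTm.trans hm) _
  -- the main computation
  have hP : ((T / n) ^ 3) ^ (s + 1) = T ^ (s + 1) * (T ^ (s + 1)) ^ 2 / ((n : ℝ) ^ (s + 1)) ^ 3 := by
    have e1 : ((T / n) ^ 3) ^ (s + 1) = (T ^ (s + 1)) ^ 3 / ((n : ℝ) ^ (s + 1)) ^ 3 := by
      rw [← pow_mul, div_pow]
      congr 1 <;> rw [← pow_mul, mul_comm]
    rw [e1]
    ring
  have hP0 : 0 ≤ ((T / n) ^ 3) ^ (s + 1) := by positivity
  have hnpow : (n : ℝ) ^ (s + 1) = n ^ s * n := pow_succ _ _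
  calc (m.choose (s + 1) : ℝ) * ((n.choose s : ℝ) * ((T / n) ^ 3) ^ (s + 1))
      ≤ ((m : ℝ) ^ (s + 1) / (s + 1).factorial) *
          (((n : ℝ) ^ s / s.factorial) * ((T / n) ^ 3) ^ (s + 1)) := by
        apply mul_le_mul hA _ (by positivity) (by positivity)
        exact mul_le_mul_of_nonneg_right hB hP0
    _ = (m : ℝ) ^ (s + 1) * T ^ (s + 1) * (T * Q ^ 2) * ((n : ℝ) ^ s / ((n : ℝ) ^ (s + 1)) ^ 3) := by
        rw [hP, hQ, hff]
        field_simp
    _ ≤ ((n / 6) ^ (s + 1) * (n / 6) ^ (s + 1)) * (T * (3 ^ (s + 1)) ^ 2) *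
          ((n : ℝ) ^ s / ((n : ℝ) ^ (s + 1)) ^ 3) := by
        apply mul_le_mul_of_nonneg_right _ (by positivity)
        apply mul_le_mul (mul_le_mul hmpow hTpow (by positivity) (by positivity)) _
          (by positivity) (by positivity)
        apply mul_le_mul_of_nonneg_left _ hT0.le
        exact pow_le_pow_left₀ hQ0 hE _
    _ = T * (1 / 4) ^ (s + 1) / n := by
        have e1 : ((n : ℝ) / 6) ^ (s + 1) = (n : ℝ) ^ (s + 1) / 6 ^ (s + 1) := div_pow _ _ _
        have e2 : ((3 : ℝ) ^ (s + 1)) ^ 2 = 9 ^ (s + 1) := by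
          rw [← pow_mul, mul_comm, pow_mul]
          norm_num
        have e3 : ((1 : ℝ) / 4) ^ (s + 1) = 9 ^ (s + 1) / (6 ^ (s + 1) * 6 ^ (s + 1)) := by
          rw [← mul_pow, ← div_pow]
          norm_num
        rw [e1, e2, e3, hnpow]
        field_simp
    _ ≤ (1 / 2) ^ (s + 1) / n := by
        apply div_le_div_of_nonneg_right _ hn'.le
        have h1 : T ≤ 2 ^ (s + 1) := by
          have : (s + 1 : ℕ) ≤ 2 ^ (s + 1) := (Nat.lt_two_pow_self).le
          rw [hT]
          exact_mod_cast this
        have h2 : ((1 : ℝ) / 2) ^ (s + 1) = 2 ^ (s + 1) * (1 / 4) ^ (s + 1) := by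
          rw [← mul_pow]
          norm_num
        rw [h2]
        exact mul_le_mul_of_nonneg_right h1 (by positivity)

/-- The terms of the union bound. -/
noncomputable def hTerm (n : ℕ) : ℕ → ℝ
  | 0 => 0
  | s + 1 => (n.choose s : ℝ) * ((((s : ℝ) + 1) / n) ^ 3) ^ (s + 1)

lemma hTerm_nonneg (n t : ℕ) : 0 ≤ hTerm n t := by
  cases t with
  | zero => exact le_refl _
  | succ s => unfold hTerm; positivity

lemma geom_le (m : ℕ) : ∑ s ∈ Finset.range m, ((1 : ℝ) / 2) ^ (s + 1) ≤ 1 := by
  have h : ∑ s ∈ Finset.range m, ((1 : ℝ) / 2) ^ (s + 1) = 1 - (1 / 2) ^ m := by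
    induction m with
    | zero => simp
    | succ m ih =>
      rw [Finset.sum_range_succ, ih, pow_succ]
      ring
  rw [h]
  have : (0 : ℝ) ≤ (1 / 2) ^ m := by positivity
  linarith

/-- For at most `n / 6` clauses, the probability of satisfiability is at least `1 - 1 / n`. -/
lemma satProb_ge (hk : 3 ≤ k) (hkn : k ≤ n) (hm : (m : ℝ) ≤ n / 6) :
    1 - 1 / (n : ℝ) ≤ satProb k n m := by
  have hn : 0 < n := by omega
  have hn' : (0:ℝ) < n := by exact_mod_cast hn
  have hmn' : (m : ℝ) ≤ n := by linarith
  have hmn : m ≤ n := by exact_mod_cast hmn'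
  have hc : 0 < Fintype.card (ProperClause n k) := by
    rw [card_clauses hkn]
    exact Nat.mul_pos (by positivity) (Nat.choose_pos hkn)
  have hc' : (0:ℝ) < Fintype.card (ProperClause n k) := by exact_mod_cast hc
  set N : ℝ := (Fintype.card (ProperClause n k) : ℝ) ^ m with hN
  have hN0 : 0 < N := by positivity
  -- the unsatisfiable formulas
  let U : Finset (Fin m → ProperClause n k) := univ.filter fun F => ¬ Satisfiable F
  have hsat : satProb k n m = 1 - (U.card : ℝ) / N := by
    unfold satProb
    have h1 := Finset.card_filter_add_card_filter_not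
      (s := (univ : Finset (Fin m → ProperClause n k))) (fun F => Satisfiable F)
    have h2 : ((univ : Finset (Fin m → ProperClause n k)).card : ℝ) = N := by
      rw [Finset.card_univ, hN]
      simp
    have h3 : (((univ.filter fun F : Fin m → ProperClause n k => Satisfiable F).card : ℝ)) +
        (U.card : ℝ) = N := by
      rw [← h2]
      exact_mod_cast h1
    rw [← hN]
    field_simp
    linarith
  -- the union bound
  have hsub : U ⊆ (univ.filter fun J : Finset (Fin m) => J.Nonempty).biUnion fun J =>
      (powersetCard (J.card - 1) (univ : Finset (Fin n))).biUnion fun V => badSet k J V := by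
    intro F hF
    have hF' : ¬ Satisfiable F := by
      simpa [U] using hF
    obtain ⟨J, V, h1, h2⟩ := exists_bad hF' hmn
    simp only [Finset.mem_biUnion, Finset.mem_filter, Finset.mem_univ, true_and,
      Finset.mem_powersetCard, Finset.subset_univ]
    refine ⟨J, Finset.card_pos.1 (by omega), V, by omega, mem_badSet.2 h2⟩
  have hcard : (U.card : ℝ) ≤ ∑ J ∈ univ.filter (fun J : Finset (Fin m) => J.Nonempty),
      ∑ V ∈ powersetCard (J.card - 1) (univ : Finset (Fin n)), ((badSet k J V).card : ℝ) := by
    have h1 := Finset.card_le_card hsub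
    have h2 := Finset.card_biUnion_le (s := univ.filter fun J : Finset (Fin m) => J.Nonempty)
      (t := fun J => (powersetCard (J.card - 1) (univ : Finset (Fin n))).biUnion
        fun V => badSet k J V)
    have h3 := h1.trans h2
    have h4 : (U.card : ℝ) ≤ ∑ J ∈ univ.filter (fun J : Finset (Fin m) => J.Nonempty),
        (((powersetCard (J.card - 1) (univ : Finset (Fin n))).biUnion
          fun V => badSet k J V).card : ℝ) := by
      exact_mod_cast h3
    refine h4.trans (Finset.sum_le_sum ?_)
    intro J _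
    exact_mod_cast Finset.card_biUnion_le
  -- each term
  have hterm : ∀ J ∈ univ.filter (fun J : Finset (Fin m) => J.Nonempty),
      ∑ V ∈ powersetCard (J.card - 1) (univ : Finset (Fin n)), ((badSet k J V).card : ℝ) / N ≤
        hTerm n J.card := by
    intro J hJ
    have hJ' : J.Nonempty := by simpa using hJ
    obtain ⟨s, hs⟩ : ∃ s, J.card = s + 1 := ⟨J.card - 1, by
      have := Finset.card_pos.2 hJ'
      omega⟩
    have hsm : s + 1 ≤ m := by
      have := Finset.card_le_univ J
      simp only [Fintype.card_fin] at this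
      omega
    have hsn : ((s : ℝ) + 1) / n ≤ 1 := by
      rw [div_le_one hn']
      have : ((s + 1 : ℕ) : ℝ) ≤ m := by exact_mod_cast hsm
      push_cast at this
      linarith
    rw [hs]
    simp only [Nat.add_sub_cancel]
    have hone : ∀ V ∈ powersetCard s (univ : Finset (Fin n)), ((badSet k J V).card : ℝ) / N ≤
        ((((s : ℝ) + 1) / n) ^ 3) ^ (s + 1) := by
      intro V hV
      obtain ⟨-, hV2⟩ := Finset.mem_powersetCard.1 hV
      rw [hN, frac_badSet hc, hs]
      apply pow_le_pow_left₀ (by positivity)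
      refine le_trans (frac_inV hkn hn V) ?_
      rw [hV2]
      have hx0 : (0 : ℝ) ≤ ((s : ℝ) + 1) / n := by positivity
      calc ((s : ℝ) / n) ^ k ≤ (((s : ℝ) + 1) / n) ^ k := by
            apply pow_le_pow_left₀ (by positivity)
            apply div_le_div_of_nonneg_right _ hn'.le
            linarith
        _ ≤ (((s : ℝ) + 1) / n) ^ 3 := pow_le_pow_of_le_one hx0 hsn hk
    calc ∑ V ∈ powersetCard s (univ : Finset (Fin n)), ((badSet k J V).card : ℝ) / N
        ≤ ∑ _V ∈ powersetCard s (univ : Finset (Fin n)), ((((s : ℝ) + 1) / n) ^ 3) ^ (s + 1) :=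
          Finset.sum_le_sum hone
      _ = hTerm n (s + 1) := by
          rw [Finset.sum_const, Finset.card_powersetCard, Finset.card_univ, Fintype.card_fin,
            nsmul_eq_mul]
          rfl
  -- the sum over the sizes
  have hsum : ∑ J ∈ univ.filter (fun J : Finset (Fin m) => J.Nonempty), hTerm n J.card ≤
      ∑ t ∈ Finset.range (m + 1), (m.choose t : ℝ) * hTerm n t := by
    have h1 : ∑ J ∈ univ.filter (fun J : Finset (Fin m) => J.Nonempty), hTerm n J.card ≤
        ∑ J ∈ (univ : Finset (Fin m)).powerset, hTerm n J.card := by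
      rw [Finset.powerset_univ]
      exact Finset.sum_le_sum_of_subset_of_nonneg (Finset.filter_subset _ _)
        (fun J _ _ => hTerm_nonneg n _)
    refine le_trans h1 (le_of_eq ?_)
    rw [Finset.sum_powerset_apply_card]
    simp only [Finset.card_univ, Fintype.card_fin, nsmul_eq_mul]
  have hfinal : ∑ t ∈ Finset.range (m + 1), (m.choose t : ℝ) * hTerm n t ≤ 1 / n := by
    rw [Finset.sum_range_succ']
    have h0 : hTerm n 0 = 0 := rfl
    rw [h0, mul_zero, add_zero]
    have h1 : ∀ s ∈ Finset.range m, (m.choose (s + 1) : ℝ) * hTerm n (s + 1) ≤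
        ((1 : ℝ) / 2) ^ (s + 1) / n := by
      intro s hs
      have := term_bound hn s (Finset.mem_range.1 hs) hm
      exact this
    refine le_trans (Finset.sum_le_sum h1) ?_
    rw [← Finset.sum_div]
    exact div_le_div_of_nonneg_right (geom_le m) hn'.le
  have hU : (U.card : ℝ) / N ≤ 1 / n := by
    have h1 : (U.card : ℝ) / N ≤ ∑ J ∈ univ.filter (fun J : Finset (Fin m) => J.Nonempty),
        hTerm n J.card := by
      refine (div_le_div_of_nonneg_right hcard hN0.le).trans ?_
      rw [Finset.sum_div]
      refine Finset.sum_le_sum ?_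
      intro J hJ
      rw [Finset.sum_div]
      exact hterm J hJ
    exact h1.trans (hsum.trans hfinal)
  rw [hsat]
  linarith

/-- The probability of satisfiability stays at least `1 / 2` for a positive density of clauses. -/
theorem hall_positive (k : ℕ) (hk : 3 ≤ k) :
    ∃ c : ℝ, 0 < c ∧ ∃ n0 : ℕ, ∀ n, n0 ≤ n → 1 / 2 ≤ satProb k n ⌊c * n⌋₊ := by
  refine ⟨1 / 6, by norm_num, max k 2, ?_⟩
  intro n hn
  have hk' : k ≤ n := le_trans (le_max_left _ _) hn
  have h2 : 2 ≤ n := le_trans (le_max_right _ _) hn
  have hn2 : (2 : ℝ) ≤ n := by exact_mod_cast h2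
  have h1 : ((⌊(1 / 6 : ℝ) * n⌋₊ : ℕ) : ℝ) ≤ n / 6 := by
    have := Nat.floor_le (show (0 : ℝ) ≤ (1 / 6 : ℝ) * n by positivity)
    linarith
  have h3 := satProb_ge hk hk' h1
  have h4 : 1 / (n : ℝ) ≤ 1 / 2 := by
    apply one_div_le_one_div_of_le (by norm_num) hn2
  linarith

end Vale.Agent.Lib.P170T
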