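import Vale.Agent.Lib.P170.Main

/-! The truncated lifetime of a solution set and the second moment identity. -/

set_option linter.unusedSectionVars false

namespace Vale.Agent.Lib.P170T

open Finset
open Vale.Agent.Lib.P170

section generic

variable {α ι κ β : Type*} [DecidableEq α] [Fintype ι] [Fintype κ]

lemma isMk_sum {W : (Finset α → ℝ) → (Finset α → ℝ)} (hW : IsMk W) (s : Finset β)
    (f : β → Finset α → ℝ) : W (fun S => ∑ x ∈ s, f x S) = fun S => ∑ x ∈ s, W (f x) S := by
  classical
  induction s using Finset.induction_on with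
  | empty =>
    simp only [Finset.sum_empty]
    exact hW.const 0
  | insert a s ha ih =>
    simp only [Finset.sum_insert ha]
    have := hW.add (f a) (fun S => ∑ x ∈ s, f x S)
    rw [this, ih]

lemma isMk_sub {W : (Finset α → ℝ) → (Finset α → ℝ)} (hW : IsMk W)
    (f g : Finset α → ℝ) : W (fun S => f S - g S) = fun S => W f S - W g S := by
  have h1 : (fun S => f S - g S) = fun S => f S + (fun S => (-1) * g S) S := by
    funext S
    simp only
    ring
  rw [h1, hW.add, hW.smul]
  funext S
  ring

/-- The expected number of clauses needed to kill `S`, truncated at `h`. -/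
noncomputable def Psi (sol : ι → Finset α) (h : ℕ) (S : Finset α) : ℝ :=
  ∑ t ∈ range h, (op sol)^[t] nonemptyInd S

variable (sol : ι → Finset α)

lemma psi_zero (S : Finset α) : Psi sol 0 S = 0 := by
  simp [Psi]

lemma psi_succ (hι : 0 < Fintype.card ι) (h : ℕ) (S : Finset α) :
    Psi sol (h + 1) S = nonemptyInd S + op sol (Psi sol h) S := by
  have hW := op_isMk sol hι
  have e : Psi sol h = fun S => ∑ t ∈ range h, (op sol)^[t] nonemptyInd S := rfl
  rw [e, isMk_sum hW]
  unfold Psi
  rw [Finset.sum_range_succ', add_comm]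
  congr 1
  refine Finset.sum_congr rfl fun t _ => ?_
  rw [Function.iterate_succ_apply']

lemma psi_mono (hι : 0 < Fintype.card ι) (h : ℕ) : MonoFn (Psi sol h) := by
  intro S T hST
  unfold Psi
  exact Finset.sum_le_sum fun t _ => (iter_valid sol hι valid_nonemptyInd t).mono S T hST

lemma psi_nonneg (hι : 0 < Fintype.card ι) (h : ℕ) (S : Finset α) : 0 ≤ Psi sol h S := by
  unfold Psi
  exact Finset.sum_nonneg fun t _ => (iter_valid sol hι valid_nonemptyInd t).nonneg S

lemma psi_le (hι : 0 < Fintype.card ι) (h : ℕ) (S : Finset α) : Psi sol h S ≤ h := by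
  unfold Psi
  calc ∑ t ∈ range h, (op sol)^[t] nonemptyInd S ≤ ∑ _t ∈ range h, (1:ℝ) :=
        Finset.sum_le_sum fun t _ => (iter_valid sol hι valid_nonemptyInd t).le_one S
    _ = h := by simp

lemma psi_empty (hι : 0 < Fintype.card ι) (h : ℕ) : Psi sol h ∅ = 0 := by
  unfold Psi
  exact Finset.sum_eq_zero fun t _ => (iter_valid sol hι valid_nonemptyInd t).empty

lemma psi_le_succ (hι : 0 < Fintype.card ι) (h : ℕ) (S : Finset α) :
    Psi sol h S ≤ Psi sol (h + 1) S := by
  unfold Psi
  rw [Finset.sum_range_succ]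
  linarith [(iter_valid sol hι valid_nonemptyInd h).nonneg S]

/-- The second moment of the one step change of the lifetime. -/
noncomputable def cc (h : ℕ) (S : Finset α) : ℝ :=
  (∑ x, (Psi sol (h + 1) S - Psi sol h (S ∩ sol x)) ^ 2) / (Fintype.card ι : ℝ)

lemma sum_delta (hι : 0 < Fintype.card ι) (h : ℕ) (S : Finset α) :
    (∑ x, (Psi sol (h + 1) S - Psi sol h (S ∩ sol x))) / (Fintype.card ι : ℝ) = nonemptyInd S := by
  have hc : (0:ℝ) < Fintype.card ι := by exact_mod_cast hι
  have h1 := psi_succ sol hι h S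
  unfold op at h1
  rw [Finset.sum_sub_distrib]
  simp only [Finset.sum_const, Finset.card_univ, nsmul_eq_mul]
  rw [sub_div, mul_div_cancel_left₀ _ hc.ne']
  linarith

lemma psi_mul_ind (hι : 0 < Fintype.card ι) (h : ℕ) (S : Finset α) :
    Psi sol h S * nonemptyInd S = Psi sol h S := by
  unfold nonemptyInd
  by_cases hS : S.Nonempty
  · simp [hS]
  · have : S = ∅ := Finset.not_nonempty_iff_eq_empty.mp hS
    subst this
    simp [psi_empty sol hι]

lemma second_step (hι : 0 < Fintype.card ι) (h : ℕ) (S : Finset α) :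
    op sol (fun S' => (Psi sol h S') ^ 2) S
      = (Psi sol (h + 1) S) ^ 2 - 2 * Psi sol (h + 1) S + cc sol h S := by
  have hc : (0:ℝ) < Fintype.card ι := by exact_mod_cast hι
  have h1 := sum_delta sol hι h S
  have h2 := psi_mul_ind sol hι (h + 1) S
  unfold op cc
  set P := Psi sol (h + 1) S with hP
  have h2' : 2 * P * nonemptyInd S = 2 * P := by rw [mul_assoc, h2]
  have e : ∀ x, (Psi sol h (S ∩ sol x)) ^ 2
      = P ^ 2 - 2 * P * (P - Psi sol h (S ∩ sol x)) + (P - Psi sol h (S ∩ sol x)) ^ 2 := by
    intro x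
    ring
  simp only [e]
  rw [Finset.sum_add_distrib, Finset.sum_sub_distrib, ← Finset.mul_sum]
  simp only [Finset.sum_const, Finset.card_univ, nsmul_eq_mul]
  rw [add_div, sub_div, mul_div_cancel_left₀ _ hc.ne', mul_div_assoc, h1, h2']

lemma iter_psi (hι : 0 < Fintype.card ι) (m h : ℕ) (S : Finset α) :
    (op sol)^[m] (Psi sol h) S = ∑ t ∈ range h, (op sol)^[m + t] nonemptyInd S := by
  have hW := (op_isMk sol hι).iterate m
  have e : Psi sol h = fun S => ∑ t ∈ range h, (op sol)^[t] nonemptyInd S := rfl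
  rw [e, isMk_sum hW]
  refine Finset.sum_congr rfl fun t _ => ?_
  rw [Function.iterate_add_apply]

lemma moment_step (hι : 0 < Fintype.card ι) (m h : ℕ) (U : Finset α) :
    (op sol)^[m + 1] (fun S' => (Psi sol h S') ^ 2) U
      = (op sol)^[m] (fun S' => (Psi sol (h + 1) S') ^ 2) U
        - 2 * (op sol)^[m] (Psi sol (h + 1)) U + (op sol)^[m] (cc sol h) U := by
  have hW := (op_isMk sol hι).iterate m
  rw [Function.iterate_succ_apply]
  have e : op sol (fun S' => (Psi sol h S') ^ 2)
      = fun S => ((fun S => (fun S => (Psi sol (h + 1) S) ^ 2) S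
          - (fun S => 2 * Psi sol (h + 1) S) S) S) + cc sol h S := by
    funext S
    exact second_step sol hι h S
  rw [e, hW.add, isMk_sub hW, hW.smul]

lemma moment_sum (hι : 0 < Fintype.card ι) (U : Finset α) (h : ℕ) : ∀ m : ℕ,
    (op sol)^[m] (fun S' => (Psi sol h S') ^ 2) U
      = 2 * ∑ i ∈ range h, (op sol)^[m + i] (Psi sol (h - i)) U
        - ∑ i ∈ range h, (op sol)^[m + i] (cc sol (h - 1 - i)) U := by
  have hW := op_isMk sol hι
  induction h with
  | zero =>
    intro m
    simp only [Finset.range_zero, Finset.sum_empty, mul_zero, sub_zero]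
    have e : (fun S' => (Psi sol 0 S') ^ 2) = fun _ => (0:ℝ) := by
      funext S
      simp [psi_zero]
    rw [e, (hW.iterate m).const]
  | succ h ih =>
    intro m
    have h1 := moment_step sol hι m h U
    have h2 := ih (m + 1)
    rw [Finset.sum_range_succ', Finset.sum_range_succ']
    have s1 : ∑ i ∈ range h, (op sol)^[m + (i + 1)] (Psi sol (h + 1 - (i + 1))) U
        = ∑ i ∈ range h, (op sol)^[m + 1 + i] (Psi sol (h - i)) U := by
      refine Finset.sum_congr rfl fun i _ => ?_
      have e1 : m + (i + 1) = m + 1 + i := by ring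
      have e2 : h + 1 - (i + 1) = h - i := by omega
      rw [e1, e2]
    have s2 : ∑ i ∈ range h, (op sol)^[m + (i + 1)] (cc sol (h + 1 - 1 - (i + 1))) U
        = ∑ i ∈ range h, (op sol)^[m + 1 + i] (cc sol (h - 1 - i)) U := by
      refine Finset.sum_congr rfl fun i _ => ?_
      have e1 : m + (i + 1) = m + 1 + i := by ring
      have e2 : h + 1 - 1 - (i + 1) = h - 1 - i := by omega
      rw [e1, e2]
    rw [s1, s2]
    rw [h2] at h1
    simp only [Nat.add_zero, Nat.sub_zero, Nat.add_sub_cancel]
    linarith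

/-- Reindexing of the double sum. -/
lemma double_sum (p : ℕ → ℝ) (h : ℕ) : ∀ m : ℕ,
    ∑ i ∈ range h, ∑ t ∈ range (h - i), p (m + i + t)
      = ∑ s ∈ range h, ((s:ℝ) + 1) * p (m + s) := by
  induction h with
  | zero => intro m; simp
  | succ h ih =>
    intro m
    rw [Finset.sum_range_succ']
    have step : ∑ i ∈ range h, ∑ t ∈ range (h + 1 - (i + 1)), p (m + (i + 1) + t)
        = ∑ i ∈ range h, ∑ t ∈ range (h - i), p (m + 1 + i + t) := by
      refine Finset.sum_congr rfl fun i _ => ?_
      have e : h + 1 - (i + 1) = h - i := by omega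
      rw [e]
      refine Finset.sum_congr rfl fun t _ => ?_
      congr 1
      ring
    rw [step, ih (m + 1)]
    rw [Finset.sum_range_succ' (fun s => ((s:ℝ) + 1) * p (m + s))]
    have e2 : ∑ t ∈ range (h + 1 - 0), p (m + 0 + t) = ∑ s ∈ range h, p (m + (s + 1)) + p m := by
      rw [Nat.sub_zero, Finset.sum_range_succ' (fun t => p (m + 0 + t))]
      simp
    rw [e2]
    have e4 : ∑ s ∈ range h, (((s + 1 : ℕ) : ℝ) + 1) * p (m + (s + 1))
        = ∑ s ∈ range h, ((s:ℝ) + 1) * p (m + 1 + s) + ∑ s ∈ range h, p (m + (s + 1)) := by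
      rw [← Finset.sum_add_distrib]
      refine Finset.sum_congr rfl fun s _ => ?_
      have e5 : m + 1 + s = m + (s + 1) := by ring
      rw [e5]
      push_cast
      ring
    rw [e4]
    simp only [Nat.add_zero, Nat.cast_zero, zero_add, one_mul]
    ring

/-- The satisfiability curve of an operator. -/
noncomputable def curve (U : Finset α) (t : ℕ) : ℝ := (op sol)^[t] nonemptyInd U

/-- The total second moment. -/
noncomputable def DD (U : Finset α) (M : ℕ) : ℝ :=
  ∑ i ∈ range M, (op sol)^[i] (cc sol (M - 1 - i)) U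

/-- The second moment identity. -/
theorem second_moment (hι : 0 < Fintype.card ι) (U : Finset α) (M : ℕ) :
    (∑ t ∈ range M, curve sol U t) ^ 2
      = 2 * ∑ s ∈ range M, ((s:ℝ) + 1) * curve sol U s - DD sol U M := by
  have h1 := moment_sum sol hι U M 0
  simp only [Function.iterate_zero, id, zero_add] at h1
  have h2 : Psi sol M U = ∑ t ∈ range M, curve sol U t := rfl
  rw [h2] at h1
  rw [h1]
  unfold DD
  congr 2
  have h3 := double_sum (curve sol U) M 0
  simp only [zero_add] at h3
  rw [← h3]
  refine Finset.sum_congr rfl fun i _ => ?_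
  rw [iter_psi sol hι]
  rfl

/-- The variance bound in the form used below. -/
theorem variance_eq (hι : 0 < Fintype.card ι) (U : Finset α) (M : ℕ) :
    ∑ s ∈ range M, (2 * (s:ℝ) + 1) * curve sol U s - (∑ t ∈ range M, curve sol U t) ^ 2
      = DD sol U M - ∑ t ∈ range M, curve sol U t := by
  rw [second_moment sol hι U M]
  have e : 2 * ∑ s ∈ range M, ((s:ℝ) + 1) * curve sol U s
      = ∑ s ∈ range M, (2 * (s:ℝ) + 1) * curve sol U s + ∑ t ∈ range M, curve sol U t := by
    rw [Finset.mul_sum, ← Finset.sum_add_distrib]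
    refine Finset.sum_congr rfl fun s _ => ?_
    ring
  rw [e]
  ring

end generic

/-! ### Chebyshev for an abstract survival curve -/

section cheb

/-- The moment of a survival curve about a point. -/
lemma abel_step (P : ℕ → ℝ) (h : ℕ → ℝ) (M : ℕ) :
    h 0 * P 0 + ∑ t ∈ range M, (h (t + 1) - h t) * P (t + 1)
      = ∑ t ∈ range M, (P t - P (t + 1)) * h t + P M * h M := by
  induction M with
  | zero => simp; ring
  | succ M ih =>
    rw [Finset.sum_range_succ, Finset.sum_range_succ, ← add_assoc, ih]
    ring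

/-- Upper tail and lower tail for a survival curve `p` with `P 0 = 1`, `P (t + 1) = p t`. -/
theorem cheb_tails {p : ℕ → ℝ} (hanti : Antitone p) (h0 : ∀ t, 0 ≤ p t) (h1 : ∀ t, p t ≤ 1)
    (M m : ℕ) (hm : m < M) :
    (((∑ t ∈ range M, p t) ≤ (m:ℝ) + 1) →
      p m * ((m:ℝ) + 1 - ∑ t ∈ range M, p t) ^ 2
        ≤ ∑ s ∈ range M, (2 * (s:ℝ) + 1) * p s - (∑ t ∈ range M, p t) ^ 2) ∧
    (((m:ℝ) ≤ ∑ t ∈ range M, p t) →
      (1 - p m) * ((∑ t ∈ range M, p t) - m) ^ 2
        ≤ ∑ s ∈ range M, (2 * (s:ℝ) + 1) * p s - (∑ t ∈ range M, p t) ^ 2) := by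
  set a := ∑ t ∈ range M, p t with ha
  set P : ℕ → ℝ := fun t => Nat.casesOn t 1 p with hP
  have hP0 : P 0 = 1 := rfl
  have hPs : ∀ t, P (t + 1) = p t := fun t => rfl
  have hPanti : ∀ t, P (t + 1) ≤ P t := by
    intro t
    cases t with
    | zero => exact h1 0
    | succ t => exact hanti (Nat.le_succ t)
  have hP0' : ∀ t, 0 ≤ P t := by
    intro t
    cases t with
    | zero => norm_num [hP0]
    | succ t => exact h0 t
  set h : ℕ → ℝ := fun t => ((t:ℝ) - a) ^ 2 with hh
  have hV : ∑ s ∈ range M, (2 * (s:ℝ) + 1) * p s - a ^ 2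
      = ∑ t ∈ range M, (P t - P (t + 1)) * h t + P M * h M := by
    rw [← abel_step]
    have e1 : h 0 * P 0 = a ^ 2 := by
      simp [hh, hP0]
    have e2 : ∑ t ∈ range M, (h (t + 1) - h t) * P (t + 1)
        = ∑ s ∈ range M, (2 * (s:ℝ) + 1) * p s - 2 * a * ∑ t ∈ range M, p t := by
      rw [Finset.mul_sum, ← Finset.sum_sub_distrib]
      refine Finset.sum_congr rfl fun s _ => ?_
      simp only [hh, hPs]
      push_cast
      ring
    rw [e1, e2, ← ha]
    ring
  rw [hV]
  have hterm : ∀ t, 0 ≤ (P t - P (t + 1)) * h t := fun t =>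
    mul_nonneg (by linarith [hPanti t]) (by simp only [hh]; positivity)
  have hhM : 0 ≤ P M * h M := mul_nonneg (hP0' M) (by simp only [hh]; positivity)
  have hmle : m + 1 ≤ M := hm
  constructor
  · intro hal
    -- the terms with `t ≥ m + 1`
    have hmono : ∀ t, m + 1 ≤ t → ((m:ℝ) + 1 - a) ^ 2 ≤ h t := by
      intro t ht
      simp only [hh]
      have ht' : (m:ℝ) + 1 ≤ t := by exact_mod_cast ht
      apply pow_le_pow_left₀ (by linarith)
      linarith
    have hind : ∀ N, m + 1 ≤ N →
        P (m + 1) * ((m:ℝ) + 1 - a) ^ 2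
          ≤ ∑ t ∈ range N, (P t - P (t + 1)) * h t + P N * h N := by
      intro N hN
      induction N, hN using Nat.le_induction with
      | base =>
        have h2 := hmono (m + 1) le_rfl
        have h3 : P (m + 1) * ((m:ℝ) + 1 - a) ^ 2 ≤ P (m + 1) * h (m + 1) :=
          mul_le_mul_of_nonneg_left h2 (hP0' (m + 1))
        have h4 : 0 ≤ ∑ t ∈ range (m + 1), (P t - P (t + 1)) * h t :=
          Finset.sum_nonneg fun t _ => hterm t
        linarith
      | succ N hN ih =>
        rw [Finset.sum_range_succ]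
        have h2 := hmono N hN
        have h2' := hmono (N + 1) (by omega)
        have h3 : P N * h N ≤ (P N - P (N + 1)) * h N + P (N + 1) * h (N + 1) := by
          have h5 : P (N + 1) * h N ≤ P (N + 1) * h (N + 1) := by
            apply mul_le_mul_of_nonneg_left _ (hP0' (N + 1))
            simp only [hh]
            have : (N:ℝ) - a ≥ 0 := by
              have hN' : (m:ℝ) + 1 ≤ N := by exact_mod_cast hN
              linarith
            apply pow_le_pow_left₀ this
            push_cast
            linarith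
          linarith
        linarith
    have := hind M hmle
    rwa [hPs] at this
  · intro hal
    -- the terms with `t ≤ m`
    have hmono : ∀ t, t ≤ m → (a - m) ^ 2 ≤ h t := by
      intro t ht
      simp only [hh]
      have ht' : (t:ℝ) ≤ m := by exact_mod_cast ht
      have e : ((t:ℝ) - a) ^ 2 = (a - t) ^ 2 := by ring
      rw [e]
      apply pow_le_pow_left₀ (by linarith)
      linarith
    have hind : ∀ N, N ≤ m + 1 → (1 - P N) * (a - m) ^ 2 ≤ ∑ t ∈ range N, (P t - P (t + 1)) * h t := by
      intro N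
      induction N with
      | zero =>
        intro _
        simp [hP0]
      | succ N ih =>
        intro hN
        rw [Finset.sum_range_succ]
        have h2 := ih (by omega)
        have h3 := hmono N (by omega)
        have h4 : (P N - P (N + 1)) * (a - m) ^ 2 ≤ (P N - P (N + 1)) * h N :=
          mul_le_mul_of_nonneg_left h3 (by linarith [hPanti N])
        nlinarith
    have h2 := hind (m + 1) le_rfl
    rw [hPs] at h2
    have h3 : ∑ t ∈ range (m + 1), (P t - P (t + 1)) * h t
        ≤ ∑ t ∈ range M, (P t - P (t + 1)) * h t :=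
      Finset.sum_le_sum_of_subset_of_nonneg (Finset.range_subset_range.mpr hmle)
        (fun t _ _ => hterm t)
    linarith

end cheb

end Vale.Agent.Lib.P170T
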