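import Vale.Agent.Lib.P170T.Life
import Vale.Agent.Lib.P170T.Sym

/-! A clause changes the lifetime by a lot only if all its literals do. -/

set_option linter.unusedSectionVars false

namespace Vale.Agent.Lib.P170T

open Finset
open Vale.Agent.Lib.P170

lemma add_pow_ge (x y : ℝ) (hx : 0 ≤ x) (hy : 0 ≤ y) (k : ℕ) :
    x ^ (k + 1) + (k + 1) * x ^ k * y ≤ (x + y) ^ (k + 1) := by
  induction k with
  | zero => simp
  | succ k ih =>
    have h1 : (x + y) * (x ^ (k + 1) + (k + 1) * x ^ k * y) ≤ (x + y) * (x + y) ^ (k + 1) :=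
      mul_le_mul_of_nonneg_left ih (by positivity)
    have h2 : 0 ≤ (k + 1 : ℝ) * x ^ k * y ^ 2 := by positivity
    have e : (x + y) * (x ^ (k + 1) + (k + 1) * x ^ k * y)
        = x ^ (k + 1 + 1) + (k + 1 + 1) * x ^ (k + 1) * y + (k + 1) * x ^ k * y ^ 2 := by ring
    rw [e] at h1
    have e2 : (x + y) * (x + y) ^ (k + 1) = (x + y) ^ (k + 1 + 1) := by ring
    rw [e2] at h1
    push_cast
    linarith

/-- The elementary symmetric bound. -/
lemma esymm_le {β : Type*} [DecidableEq β] (Z : β → ℝ) (hZ : ∀ x, 0 ≤ Z x) (L : Finset β) :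
    ∀ k : ℕ, ∑ A ∈ L.powersetCard k, ∏ x ∈ A, Z x ≤ (∑ x ∈ L, Z x) ^ k / (k.factorial : ℝ) := by
  induction L using Finset.induction_on with
  | empty =>
    intro k
    cases k with
    | zero => simp
    | succ k =>
      have e : Finset.powersetCard (k + 1) (∅ : Finset β) = ∅ := by
        rw [Finset.powersetCard_eq_empty]
        simp
      rw [e]
      simp
  | insert a L ha ih =>
    intro k
    cases k with
    | zero => simp
    | succ k =>
      rw [Finset.powersetCard_succ_insert ha, Finset.sum_insert ha]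
      have hdisj : Disjoint (L.powersetCard (k + 1)) ((L.powersetCard k).image (insert a)) := by
        rw [Finset.disjoint_left]
        intro A hA hA'
        rw [Finset.mem_powersetCard] at hA
        rw [Finset.mem_image] at hA'
        obtain ⟨B, _, rfl⟩ := hA'
        exact ha (hA.1 (Finset.mem_insert_self a B))
      rw [Finset.sum_union hdisj]
      have hinj : Set.InjOn (insert a) ((L.powersetCard k : Finset (Finset β)) : Set (Finset β)) := by
        intro B hB B' hB' h
        have hB1 := (Finset.mem_powersetCard.mp (Finset.mem_coe.mp hB)).1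
        have hB2 := (Finset.mem_powersetCard.mp (Finset.mem_coe.mp hB')).1
        have hnB : a ∉ B := fun h' => ha (hB1 h')
        have hnB' : a ∉ B' := fun h' => ha (hB2 h')
        have := congrArg (fun X => Finset.erase X a) h
        simpa [Finset.erase_insert hnB, Finset.erase_insert hnB'] using this
      rw [Finset.sum_image hinj]
      have h2 : ∑ B ∈ L.powersetCard k, ∏ x ∈ insert a B, Z x
          = Z a * ∑ B ∈ L.powersetCard k, ∏ x ∈ B, Z x := by
        rw [Finset.mul_sum]
        refine Finset.sum_congr rfl fun B hB => ?_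
        have hB1 := (Finset.mem_powersetCard.mp hB).1
        rw [Finset.prod_insert (fun h' => ha (hB1 h'))]
      rw [h2]
      have i1 := ih (k + 1)
      have i2 := ih k
      set s := ∑ x ∈ L, Z x with hs
      have hs0 : 0 ≤ s := Finset.sum_nonneg fun x _ => hZ x
      have hf : (0:ℝ) < (k.factorial : ℝ) := by positivity
      have hf1 : ((k + 1).factorial : ℝ) = (k + 1) * k.factorial := by
        rw [Nat.factorial_succ]
        push_cast
        ring
      have hmain := add_pow_ge s (Z a) hs0 (hZ a) k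
      have h3 : s ^ (k + 1) / ((k + 1).factorial : ℝ) + Z a * (s ^ k / (k.factorial : ℝ))
          ≤ (Z a + s) ^ (k + 1) / ((k + 1).factorial : ℝ) := by
        rw [hf1]
        rw [add_comm (Z a) s]
        have e : s ^ (k + 1) / ((k + 1 : ℝ) * k.factorial) + Z a * (s ^ k / k.factorial)
            = (s ^ (k + 1) + (k + 1) * s ^ k * Z a) / ((k + 1 : ℝ) * k.factorial) := by
          field_simp
        rw [e]
        exact div_le_div_of_nonneg_right hmain (by positivity)
      have h4 : Z a * ∑ B ∈ L.powersetCard k, ∏ x ∈ B, Z x ≤ Z a * (s ^ k / (k.factorial : ℝ)) :=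
        mul_le_mul_of_nonneg_left i2 (hZ a)
      linarith

/-- Falling factorial against the power. -/
lemma pow_le_two_desc {N k : ℕ} (hN : 2 * k ^ 2 ≤ N) (hk : 1 ≤ k) :
    ((N:ℝ)) ^ k ≤ 2 * (k.factorial : ℝ) * (N.choose k : ℝ) := by
  have hk2 : k ≤ k ^ 2 := by nlinarith
  have hkN : k ≤ N := by omega
  have hN0 : (0:ℝ) < N := by
    have : 0 < N := by omega
    exact_mod_cast this
  have h1 : ((N + 1 - k : ℕ) : ℝ) ^ k ≤ (k.factorial : ℝ) * (N.choose k : ℝ) := by
    have := Nat.pow_sub_le_descFactorial N k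
    rw [Nat.descFactorial_eq_factorial_mul_choose] at this
    exact_mod_cast this
  have hx : ((N + 1 - k : ℕ) : ℝ) = (N:ℝ) * (1 + (-(((k:ℝ) - 1) / N))) := by
    rw [Nat.cast_sub (by omega)]
    push_cast
    field_simp
    ring
  have hk1 : (1:ℝ) ≤ k := by exact_mod_cast hk
  have hNr : 2 * (k:ℝ) ^ 2 ≤ N := by exact_mod_cast hN
  have hb : -2 ≤ -(((k:ℝ) - 1) / N) := by
    have : ((k:ℝ) - 1) / N ≤ 1 := by
      rw [div_le_one hN0]
      nlinarith
    linarith
  have h2 := one_add_mul_le_pow hb k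
  have h3 : (1:ℝ) / 2 ≤ 1 + (k:ℝ) * (-(((k:ℝ) - 1) / N)) := by
    have : (k:ℝ) * (((k:ℝ) - 1) / N) ≤ 1 / 2 := by
      rw [← mul_div_assoc, div_le_iff₀ hN0]
      nlinarith
    linarith
  rw [hx, mul_pow] at h1
  have h4 : (N:ℝ) ^ k * (1 / 2) ≤ (N:ℝ) ^ k * (1 + (-(((k:ℝ) - 1) / N))) ^ k :=
    mul_le_mul_of_nonneg_left (h3.trans h2) (by positivity)
  linarith

/-- The pointwise inequality used for the second moment. -/
lemma sq_le_interp {t X : ℝ} (ht : 0 < t) (hX : 0 ≤ X) (l : ℕ) :
    t ^ (l + 1) * X ^ 2 ≤ t ^ (l + 2) * X + X ^ (l + 3) := by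
  by_cases h : X ≤ t
  · have h1 : t ^ (l + 1) * X ^ 2 ≤ t ^ (l + 2) * X := by
      have e1 : t ^ (l + 1) * X ^ 2 = t ^ (l + 1) * X * X := by ring
      have e2 : t ^ (l + 2) * X = t ^ (l + 1) * X * t := by ring
      rw [e1, e2]
      exact mul_le_mul_of_nonneg_left h (by positivity)
    have h2 : 0 ≤ X ^ (l + 3) := by positivity
    linarith
  · push Not at h
    have h1 : t ^ (l + 1) ≤ X ^ (l + 1) := pow_le_pow_left₀ ht.le h.le _
    have h2 : t ^ (l + 1) * X ^ 2 ≤ X ^ (l + 1) * X ^ 2 :=
      mul_le_mul_of_nonneg_right h1 (by positivity)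
    have e : X ^ (l + 1) * X ^ 2 = X ^ (l + 3) := by ring
    have h3 : 0 ≤ t ^ (l + 2) * X := by positivity
    linarith

section main

open Classical

variable {N l : ℕ}

/-- The average change of the lifetime when a literal is added. -/
noncomputable def RR (N k h : ℕ) (S : Finset (Fin N → Bool)) : ℝ :=
  Psi (solSet : ProperClause N k → _) (h + 1) S
    - op (litSet : Fin N × Bool → _) (Psi (solSet : ProperClause N k → _) h) S

lemma litSet_subset_solSet {k : ℕ} (c : ProperClause N k) {x : Fin N × Bool} (hx : x ∈ c.1) :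
    litSet x ⊆ solSet c := by
  intro a ha
  simp only [litSet, Finset.mem_filter, Finset.mem_univ, true_and] at ha
  simp only [solSet, Finset.mem_filter, Finset.mem_univ, true_and]
  exact ⟨x, hx, ha⟩

/-- The key bound: second moment of the change by a clause against the literal average. -/
theorem cc_le {k : ℕ} (hk : k = l + 3) (hN : 2 * k ^ 2 ≤ N) {A : ℝ} (hA1 : 1 ≤ A) {h : ℕ}
    (hA2 : (h:ℝ) + 1 ≤ A ^ 2) (S : Finset (Fin N → Bool)) :
    cc (solSet : ProperClause N k → _) h S ≤ 3 * A * RR N k h S := by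
  subst hk
  have hkN : l + 3 ≤ N := by nlinarith
  have hι : 0 < Fintype.card (ProperClause N (l + 3)) := card_clause_pos hkN
  have hc : (0:ℝ) < Fintype.card (ProperClause N (l + 3)) := by exact_mod_cast hι
  have hN0 : (0:ℝ) < N := by
    have : 0 < N := by omega
    exact_mod_cast this
  set sol := (solSet : ProperClause N (l + 3) → _) with hsol
  by_cases hS : S.Nonempty
  swap
  · have hS0 : S = ∅ := Finset.not_nonempty_iff_eq_empty.mp hS
    subst hS0
    have h1 : cc sol h ∅ = 0 := by
      unfold cc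
      simp [psi_empty sol hι]
    have h2 : RR N (l + 3) h ∅ = 0 := by
      unfold RR
      unfold op
      simp [psi_empty _ hι]
    rw [h1, h2]
    simp
  set P := Psi sol (h + 1) S with hP
  set X : ProperClause N (l + 3) → ℝ := fun c => P - Psi sol h (S ∩ sol c) with hX
  set Z : Fin N × Bool → ℝ := fun x => P - Psi sol h (S ∩ litSet x) with hZ
  have hmono := psi_mono sol hι h
  have hX0 : ∀ c, 0 ≤ X c := by
    intro c
    have h1 := hmono _ _ (Finset.inter_subset_left : S ∩ sol c ⊆ S)
    have h2 := psi_le_succ sol hι h S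
    simp only [hX]
    linarith
  have hXZ : ∀ c, ∀ x ∈ c.1, X c ≤ Z x := by
    intro c x hx
    have h1 := hmono (S ∩ litSet x) (S ∩ sol c)
      (Finset.inter_subset_inter_left (litSet_subset_solSet c hx))
    simp only [hX, hZ]
    linarith
  have hZ0 : ∀ x, 0 ≤ Z x := by
    intro x
    have h1 := hmono _ _ (Finset.inter_subset_left : S ∩ litSet x ⊆ S)
    have h2 := psi_le_succ sol hι h S
    simp only [hZ]
    linarith
  have hZle : ∀ x, Z x ≤ (h:ℝ) + 1 := by
    intro x
    have h1 := psi_nonneg sol hι h (S ∩ litSet x)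
    have h2 := psi_le sol hι (h + 1) S
    push_cast at h2
    simp only [hZ]
    linarith
  have hsumX : (∑ c, X c) / (Fintype.card (ProperClause N (l + 3)) : ℝ) = 1 := by
    have h1 := sum_delta sol hι h S
    have e : nonemptyInd S = 1 := by simp [nonemptyInd, hS]
    rw [e] at h1
    exact h1
  -- the literal average
  have hcardL : (Fintype.card (Fin N × Bool) : ℝ) = 2 * N := by
    simp [Fintype.card_prod]
    ring
  set R := RR N (l + 3) h S with hR
  have hRe : R = (∑ x, Z x) / (2 * N) := by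
    have e0 : R = P - (∑ x, Psi sol h (S ∩ litSet x)) / (Fintype.card (Fin N × Bool) : ℝ) := rfl
    have e1 : ∑ x, Z x = ∑ x, (P - Psi sol h (S ∩ litSet x)) := rfl
    rw [e0, e1, hcardL, Finset.sum_sub_distrib]
    simp only [Finset.sum_const, Finset.card_univ, nsmul_eq_mul]
    rw [hcardL]
    field_simp
    try ring
  have hsumZ : ∑ x, Z x = 2 * N * R := by
    rw [hRe]
    field_simp
  have hR0 : 0 < R := by
    rw [hRe]
    apply div_pos _ (by positivity)
    -- a positive term
    have : 0 < ∑ c, X c := by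
      have h1 : ∑ c, X c = Fintype.card (ProperClause N (l + 3)) := by
        rw [div_eq_one_iff_eq hc.ne'] at hsumX
        exact hsumX
      rw [h1]
      exact hc
    obtain ⟨c, _, hcpos⟩ := Finset.exists_lt_of_sum_lt (s := univ) (f := fun _ => (0:ℝ))
      (g := X) (by simpa using this)
    have hcard : c.1.card = l + 3 := c.2.1
    have hne : c.1.Nonempty := by
      rw [← Finset.card_pos, hcard]
      omega
    obtain ⟨x, hx⟩ := hne
    have h1 := hXZ c x hx
    exact Finset.sum_pos' (fun x _ => hZ0 x) ⟨x, Finset.mem_univ _, by linarith⟩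
  have hRle : R ≤ (h:ℝ) + 1 := by
    rw [hRe, div_le_iff₀ (by positivity)]
    calc ∑ x, Z x ≤ ∑ _x : Fin N × Bool, ((h:ℝ) + 1) := Finset.sum_le_sum fun x _ => hZle x
      _ = ((h:ℝ) + 1) * (2 * N) := by
        simp only [Finset.sum_const, Finset.card_univ, nsmul_eq_mul]
        rw [hcardL]
        ring
  -- the k-th moment
  have hprod : ∀ c : ProperClause N (l + 3), X c ^ (l + 3) ≤ ∏ x ∈ c.1, Z x := by
    intro c
    have h1 : ∏ _x ∈ c.1, X c ≤ ∏ x ∈ c.1, Z x :=
      Finset.prod_le_prod (fun _ _ => hX0 c) (fun x hx => hXZ c x hx)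
    rwa [Finset.prod_const, c.2.1] at h1
  have hsumprod : ∑ c : ProperClause N (l + 3), ∏ x ∈ c.1, Z x
      ≤ ∑ A ∈ (univ : Finset (Fin N × Bool)).powersetCard (l + 3), ∏ x ∈ A, Z x := by
    have hinj : Function.Injective (fun c : ProperClause N (l + 3) => c.1) :=
      fun c c' h => Subtype.ext h
    have e : ∑ c : ProperClause N (l + 3), ∏ x ∈ c.1, Z x
        = ∑ A ∈ (univ : Finset (ProperClause N (l + 3))).image (fun c => c.1), ∏ x ∈ A, Z x := by
      rw [Finset.sum_image (fun x _ y _ h => hinj h)]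
    rw [e]
    apply Finset.sum_le_sum_of_subset_of_nonneg
    · intro A hA
      rw [Finset.mem_image] at hA
      obtain ⟨c, _, rfl⟩ := hA
      exact Finset.mem_powersetCard.mpr ⟨Finset.subset_univ _, c.2.1⟩
    · intro A _ _
      exact Finset.prod_nonneg fun x _ => hZ0 x
  have hes := esymm_le Z hZ0 (univ : Finset (Fin N × Bool)) (l + 3)
  have hkth : (∑ c, X c ^ (l + 3)) / (Fintype.card (ProperClause N (l + 3)) : ℝ) ≤ 2 * R ^ (l + 3) := by
    rw [div_le_iff₀ hc]
    have h1 : ∑ c, X c ^ (l + 3) ≤ (2 * N * R) ^ (l + 3) / ((l + 3).factorial : ℝ) := by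
      refine (Finset.sum_le_sum fun c _ => hprod c).trans (hsumprod.trans ?_)
      rw [← hsumZ]
      exact hes
    refine h1.trans ?_
    rw [div_le_iff₀ (by positivity)]
    have hnum := pow_le_two_desc (N := N) (k := l + 3) hN (by omega)
    rw [card_clause]
    push_cast
    have e : (2 * (N:ℝ) * R) ^ (l + 3) = 2 ^ (l + 3) * R ^ (l + 3) * (N:ℝ) ^ (l + 3) := by
      rw [mul_pow, mul_pow]
      ring
    rw [e]
    have hpos : (0:ℝ) ≤ 2 ^ (l + 3) * R ^ (l + 3) := by positivity
    have := mul_le_mul_of_nonneg_left hnum hpos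
    nlinarith
  -- interpolation
  set t := A * R with ht
  have ht0 : 0 < t := by positivity
  have hinterp : t ^ (l + 1) * cc sol h S ≤ t ^ (l + 2) + 2 * R ^ (l + 3) := by
    have h1 : ∀ c, t ^ (l + 1) * X c ^ 2 ≤ t ^ (l + 2) * X c + X c ^ (l + 3) :=
      fun c => sq_le_interp ht0 (hX0 c) l
    have h2 := Finset.sum_le_sum fun c (_ : c ∈ (univ : Finset (ProperClause N (l + 3)))) => h1 c
    rw [← Finset.mul_sum, Finset.sum_add_distrib, ← Finset.mul_sum] at h2
    have h3 := div_le_div_of_nonneg_right h2 hc.le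
    rw [add_div, mul_div_assoc, mul_div_assoc] at h3
    rw [hsumX, mul_one] at h3
    have e : cc sol h S = (∑ c, X c ^ 2) / (Fintype.card (ProperClause N (l + 3)) : ℝ) := rfl
    rw [e]
    linarith
  -- conclusion
  have hA0 : 0 < A := by linarith
  have hcc : A ^ (l + 1) * cc sol h S ≤ 3 * A ^ (l + 2) * R := by
    have e1 : t ^ (l + 1) * cc sol h S = R ^ (l + 1) * (A ^ (l + 1) * cc sol h S) := by
      rw [ht]
      ring
    have e2 : t ^ (l + 2) + 2 * R ^ (l + 3)
        = R ^ (l + 1) * (A ^ (l + 2) * R + 2 * R ^ 2) := by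
      rw [ht]
      ring
    rw [e1, e2] at hinterp
    have h1 := le_of_mul_le_mul_left hinterp (by positivity)
    have h2 : R ^ 2 ≤ A ^ 2 * R := by
      have : R ≤ A ^ 2 := hRle.trans hA2
      nlinarith
    have h3 : A ^ 2 ≤ A ^ (l + 2) := pow_le_pow_right₀ hA1 (by omega)
    have h4 : A ^ 2 * R ≤ A ^ (l + 2) * R := mul_le_mul_of_nonneg_right h3 hR0.le
    nlinarith
  have e3 : 3 * A ^ (l + 2) * R = A ^ (l + 1) * (3 * A * R) := by ring
  rw [e3] at hcc
  exact le_of_mul_le_mul_left hcc (by positivity)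

end main

end Vale.Agent.Lib.P170T
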