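import Vale.Agent.Lib.P170T.Point
import Vale.Agent.Lib.P170T.Gone

/-! The variance bound for the death time of random `k`-SAT. -/

set_option linter.unusedSectionVars false

namespace Vale.Agent.Lib.P170T

open Finset Filter
open Vale.Agent.Lib.P170

open Classical

variable {N k : ℕ}

/-- The gap between the two survival curves. -/
noncomputable def gap (N k s : ℕ) : ℝ :=
  curve (solSet : ProperClause N k → _) univ s
    - (op (solSet : ProperClause N k → _))^[s] (op (litSet : Fin N × Bool → _) nonemptyInd) univ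

lemma litcard (hN : 0 < N) : 0 < Fintype.card (Fin N × Bool) := by
  simp [Fintype.card_prod]
  omega

lemma gap_nonneg (hk : k ≤ N) (hN : 0 < N) (s : ℕ) : 0 ≤ gap N k s := by
  have hW := (op_isMk (solSet : ProperClause N k → _) (card_clause_pos hk)).iterate s
  unfold gap curve
  have h1 : ∀ S, op (litSet : Fin N × Bool → _) nonemptyInd S ≤ nonemptyInd S :=
    fun S => op_le_self _ (litcard hN) valid_nonemptyInd.mono S
  have := hW.mono _ _ h1 univ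
  linarith

lemma iter_RR_generic {α ι κ : Type*} [DecidableEq α] [Fintype ι] [Fintype κ]
    (sol : ι → Finset α) (L : κ → Finset α) (hι : 0 < Fintype.card ι) (hκ : 0 < Fintype.card κ)
    (m h : ℕ) (U : Finset α) :
    (op sol)^[m] (fun S => Psi sol (h + 1) S - op L (Psi sol h) S) U
      = (op sol)^[m + h] nonemptyInd U
        + ∑ t ∈ range h, ((op sol)^[m + t] nonemptyInd U
            - (op sol)^[m + t] (op L nonemptyInd) U) := by
  have hW := (op_isMk sol hι).iterate m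
  have hLk : IsMk (op L) := op_isMk _ hκ
  rw [isMk_sub hW]
  simp only
  rw [iter_psi sol hι]
  have e1 : Psi sol h = fun S => ∑ t ∈ range h, (op sol)^[t] nonemptyInd S := rfl
  have e2 : op L (Psi sol h) = fun S => ∑ t ∈ range h, (op sol)^[t] (op L nonemptyInd) S := by
    rw [e1, isMk_sum hLk]
    funext S
    refine Finset.sum_congr rfl fun t _ => ?_
    have hc : Function.Commute (op L) ((op sol)^[t]) := (op_comm _ _).iterate_right t
    rw [hc nonemptyInd]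
  rw [e2, isMk_sum hW, Finset.sum_range_succ]
  beta_reduce
  rw [Finset.sum_sub_distrib]
  have e3 : ∑ t ∈ range h, (op sol)^[m] ((op sol)^[t] (op L nonemptyInd)) U
      = ∑ t ∈ range h, (op sol)^[m + t] (op L nonemptyInd) U := by
    refine Finset.sum_congr rfl fun t _ => ?_
    rw [Function.iterate_add_apply]
  rw [e3]
  ring

lemma iter_RR (hk : k ≤ N) (hN : 0 < N) (m h : ℕ) :
    (op (solSet : ProperClause N k → _))^[m] (RR N k h) univ
      = curve (solSet : ProperClause N k → _) univ (m + h) + ∑ t ∈ range h, gap N k (m + t) :=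
  iter_RR_generic _ _ (card_clause_pos hk) (litcard hN) m h univ

/-- The bound of the total second moment. -/
theorem DD_le {l : ℕ} (hk : k = l + 3) (hN : 2 * k ^ 2 ≤ N) {A : ℝ} (hA1 : 1 ≤ A) {M : ℕ}
    (hA2 : (M:ℝ) ≤ A ^ 2) :
    DD (solSet : ProperClause N k → _) univ M
      ≤ 3 * A * M * (1 + ∑ s ∈ range M, gap N k s) := by
  have hkN : k ≤ N := by
    subst hk
    nlinarith
  have hN0 : 0 < N := by
    subst hk
    nlinarith
  have hι := card_clause_pos hkN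
  set sol := (solSet : ProperClause N k → _) with hsol
  have hA0 : 0 ≤ 3 * A := by linarith
  have hG0 : ∀ s, 0 ≤ gap N k s := gap_nonneg hkN hN0
  have hterm : ∀ i ∈ range M, (op sol)^[i] (cc sol (M - 1 - i)) univ
      ≤ 3 * A * (1 + ∑ s ∈ range M, gap N k s) := by
    intro i hi
    have hiM := Finset.mem_range.mp hi
    set h := M - 1 - i with hh
    have hhM : h + 1 ≤ M := by omega
    have hW := (op_isMk sol hι).iterate i
    have hA3 : (h:ℝ) + 1 ≤ A ^ 2 := by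
      have : ((h + 1 : ℕ) : ℝ) ≤ M := by exact_mod_cast hhM
      push_cast at this
      linarith
    have h1 : ∀ S, cc sol h S ≤ (fun S => 3 * A * RR N k h S) S :=
      fun S => cc_le hk hN hA1 hA3 S
    have h2 := hW.mono _ _ h1 univ
    rw [hW.smul] at h2
    simp only at h2
    rw [iter_RR hkN hN0] at h2
    refine h2.trans (mul_le_mul_of_nonneg_left ?_ hA0)
    have h3 := (iter_valid sol hι valid_nonemptyInd (i + h)).le_one univ
    have h4 : ∑ t ∈ range h, gap N k (i + t) ≤ ∑ s ∈ range M, gap N k s := by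
      have e : ∑ t ∈ range h, gap N k (i + t) = ∑ s ∈ Ico i (i + h), gap N k s := by
        rw [Finset.sum_Ico_eq_sum_range]
        simp
      rw [e]
      apply Finset.sum_le_sum_of_subset_of_nonneg
      · intro s hs
        rw [Finset.mem_Ico] at hs
        rw [Finset.mem_range]
        omega
      · intro s _ _
        exact hG0 s
    have h5 : curve sol univ (i + h) ≤ 1 := h3
    linarith
  unfold DD
  refine (Finset.sum_le_sum hterm).trans (le_of_eq ?_)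
  simp only [Finset.sum_const, Finset.card_range, nsmul_eq_mul]
  ring

/-- The variance of the truncated death time. -/
noncomputable def varT (N k M : ℕ) : ℝ :=
  ∑ s ∈ range M, (2 * (s:ℝ) + 1) * satProb k N s - (∑ t ∈ range M, satProb k N t) ^ 2

lemma curve_eq (k N s : ℕ) : curve (solSet : ProperClause N k → _) univ s = satProb k N s := by
  rw [satProb_eq]
  rfl

theorem varT_le {l : ℕ} (hk : k = l + 3) (hN : 2 * k ^ 2 ≤ N) {A : ℝ} (hA1 : 1 ≤ A) {M : ℕ}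
    (hA2 : (M:ℝ) ≤ A ^ 2) : varT N k M ≤ 3 * A * M * (1 + ∑ s ∈ range M, gap N k s) := by
  have hkN : k ≤ N := by
    subst hk
    nlinarith
  have hι := card_clause_pos hkN
  have h1 := variance_eq (solSet : ProperClause N k → _) hι univ M
  simp only [curve_eq] at h1
  have h2 := DD_le hk hN hA1 hA2
  have h3 : 0 ≤ ∑ t ∈ range M, satProb k N t :=
    Finset.sum_nonneg fun t _ => satProb_nonneg hkN t
  unfold varT
  rw [h1]
  linarith

/-- The scale `s` with `s ^ 6 ≤ N < (s + 1) ^ 6`. -/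
lemma lt_succ_scale (N : ℕ) : N < (scale 6 N + 1) ^ 6 := by
  by_contra hcon
  push Not at hcon
  have := le_scale (a := 6) (by norm_num) hcon
  omega

lemma numeric_han {s n J : ℝ} (hs : 1 ≤ s) (hJ : 2 * J + 2 ≤ s) (hJ0 : 0 ≤ J) (hn : s ^ 6 ≤ n + 1) :
    2 * J ≤ 1 / s ^ 2 * n := by
  have hs0 : 0 < s := by linarith
  rw [div_mul_eq_mul_div, one_mul, le_div_iff₀ (by positivity)]
  have h1 : 2 * J * s ^ 2 ≤ s * s ^ 2 := mul_le_mul_of_nonneg_right (by linarith) (by positivity)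
  have h3 : (2:ℝ) ≤ s := by linarith
  have h5 : (2:ℝ) ≤ s ^ 3 := by
    have : s ≤ s ^ 3 := by
      have := pow_le_pow_right₀ hs (by norm_num : 1 ≤ 3)
      simpa using this
    linarith
  have h4 : s ^ 3 * 2 ≤ s ^ 3 * s ^ 3 := mul_le_mul_of_nonneg_left h5 (by positivity)
  have e : s ^ 6 = s ^ 3 * s ^ 3 := by ring
  have e2 : s * s ^ 2 = s ^ 3 := by ring
  rw [e2] at h1
  rw [e] at hn
  have : s ^ 3 ≥ 2 := h5
  linarith

lemma numeric_gap {s C₁ J a N : ℝ} {j : ℕ} (hs : 1 ≤ s) (hC₁ : 0 ≤ C₁) (hJ : 0 ≤ J) (hj : 2 ≤ j)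
    (ha : a = 1 / s ^ 2) (hN0 : 0 < N) (hN : N ≤ 64 * s ^ 6) :
    J / (2 * N) * (C₁ * N) * (a ^ j * (C₁ * N) + 8 / a)
      ≤ J * C₁ / 2 * (64 * C₁ + 8) * s ^ 2 := by
  have hs0 : 0 < s := by linarith
  have ha0 : 0 < a := by rw [ha]; positivity
  have ha1 : a ≤ 1 := by
    rw [ha, div_le_one (by positivity)]
    exact one_le_pow₀ hs
  have hq : J / (2 * N) * (C₁ * N) = J * C₁ / 2 := by
    field_simp
  rw [hq, mul_assoc]
  apply mul_le_mul_of_nonneg_left _ (by positivity)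
  have h8 : 8 / a = 8 * s ^ 2 := by
    rw [ha]
    field_simp
  have haj : a ^ j ≤ a ^ 2 := pow_le_pow_of_le_one ha0.le ha1 hj
  have ha2 : a ^ 2 = 1 / s ^ 4 := by
    rw [ha]
    field_simp
  have h9 : a ^ j * (C₁ * N) ≤ 64 * C₁ * s ^ 2 := by
    have h10 : a ^ j * (C₁ * N) ≤ a ^ 2 * (C₁ * (64 * s ^ 6)) := by
      apply mul_le_mul haj _ (by positivity) (by positivity)
      exact mul_le_mul_of_nonneg_left hN hC₁
    have h11 : a ^ 2 * (C₁ * (64 * s ^ 6)) = 64 * C₁ * s ^ 2 := by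
      rw [ha2]
      field_simp
    linarith
  rw [h8]
  have e : (64 * C₁ + 8) * s ^ 2 = 64 * C₁ * s ^ 2 + 8 * s ^ 2 := by ring
  rw [e]
  linarith

lemma numeric_final {s C₁ C₃ G N : ℝ} (hs : 1 ≤ s) (hC₁ : 1 ≤ C₁) (hC₃ : 0 ≤ C₃) (hG0 : 0 ≤ G)
    (hG : G ≤ C₃ * s ^ 2) (hN : s ^ 6 ≤ N) :
    3 * (C₁ * (s + 1) ^ 3) * (C₁ * N) * (1 + G) * s ≤ 24 * C₁ ^ 2 * (1 + C₃) * N ^ 2 := by
  have hs0 : 0 < s := by linarith
  have hN0 : 0 < N := lt_of_lt_of_le (by positivity) hN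
  have hs1le : s + 1 ≤ 2 * s := by linarith
  have hA8 : (s + 1) ^ 3 ≤ 8 * s ^ 3 := by
    have : (s + 1) ^ 3 ≤ (2 * s) ^ 3 := pow_le_pow_left₀ (by linarith) hs1le 3
    have e : (2 * s) ^ 3 = 8 * s ^ 3 := by ring
    linarith
  have h1G : 1 + G ≤ (1 + C₃) * s ^ 2 := by
    have : (1:ℝ) ≤ s ^ 2 := one_le_pow₀ hs
    nlinarith
  have hfin : 3 * (C₁ * (s + 1) ^ 3) * (C₁ * N) * (1 + G)
      ≤ 3 * (C₁ * (8 * s ^ 3)) * (C₁ * N) * ((1 + C₃) * s ^ 2) := by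
    apply mul_le_mul _ h1G (by linarith) (by positivity)
    apply mul_le_mul_of_nonneg_right _ (by positivity)
    apply mul_le_mul_of_nonneg_left _ (by norm_num)
    exact mul_le_mul_of_nonneg_left hA8 (by linarith)
  have e5 : 3 * (C₁ * (8 * s ^ 3)) * (C₁ * N) * ((1 + C₃) * s ^ 2)
      = 24 * C₁ ^ 2 * (1 + C₃) * (s ^ 5 * N) := by ring
  rw [e5] at hfin
  have h8 := mul_le_mul_of_nonneg_right hfin hs0.le
  have h7 : 24 * C₁ ^ 2 * (1 + C₃) * (s ^ 5 * N) * s ≤ 24 * C₁ ^ 2 * (1 + C₃) * N ^ 2 := by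
    have h9 : s ^ 5 * N * s ≤ N ^ 2 := by
      have e7 : s ^ 5 * N * s = s ^ 6 * N := by ring
      rw [e7]
      nlinarith
    have h10 : (0:ℝ) ≤ 24 * C₁ ^ 2 * (1 + C₃) := by positivity
    have := mul_le_mul_of_nonneg_left h9 h10
    calc 24 * C₁ ^ 2 * (1 + C₃) * (s ^ 5 * N) * s = 24 * C₁ ^ 2 * (1 + C₃) * (s ^ 5 * N * s) := by
          ring
      _ ≤ _ := this
  linarith

/-- The variance bound. -/
theorem var_scale (l : ℕ) :
    ∃ C₁ : ℕ, 1 ≤ C₁ ∧ (1 - (1 / 2 : ℝ) ^ (l + 3)) ^ C₁ ≤ 1 / 4 ∧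
      ∃ C₄ : ℝ, 0 < C₄ ∧ ∃ N₀ : ℕ, ∀ N : ℕ, N₀ ≤ N →
        varT N (l + 3) (C₁ * N) ≤ C₄ * (N:ℝ) ^ 2 / (scale 6 N : ℝ) := by
  set k := l + 3 with hk
  have hρ1 : 1 - (1 / 2 : ℝ) ^ k < 1 := by
    have : (0:ℝ) < (1 / 2 : ℝ) ^ k := by positivity
    linarith
  have hρ0 : 0 ≤ 1 - (1 / 2 : ℝ) ^ k := by
    have : (1 / 2 : ℝ) ^ k ≤ 1 := pow_le_one₀ (by norm_num) (by norm_num)
    linarith
  obtain ⟨C₀, hC₀⟩ := exists_pow_lt_of_lt_one (by norm_num : (0:ℝ) < 1 / 4) hρ1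
  refine ⟨C₀ + 1, by omega, ?_, ?_⟩
  · rw [pow_succ]
    have h1 : (1 - (1 / 2 : ℝ) ^ k) ^ C₀ * (1 - (1 / 2 : ℝ) ^ k) ≤ (1 - (1 / 2 : ℝ) ^ k) ^ C₀ := by
      have h2 : 0 ≤ (1 - (1 / 2 : ℝ) ^ k) ^ C₀ := pow_nonneg hρ0 _
      nlinarith
    linarith
  set C₁ := C₀ + 1 with hC₁
  have hC₁r : (1:ℝ) ≤ C₁ := by
    rw [hC₁]
    push_cast
    linarith [(Nat.cast_nonneg C₀ : (0:ℝ) ≤ C₀)]
  set j := l + 2 with hj
  have hkj : k = j + 1 := by omega
  set C₃ : ℝ := ((j:ℝ) + 1) * C₁ / 2 * (64 * C₁ + 8) with hC₃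
  have hC₃0 : 0 ≤ C₃ := by positivity
  set C₄ : ℝ := 24 * (C₁:ℝ) ^ 2 * (1 + C₃) with hC₄
  have hC₄0 : 0 < C₄ := by positivity
  refine ⟨C₄, hC₄0, ?_⟩
  set s₀ := 2 * k ^ 2 + 2 * (j + 1) + 2 with hs₀
  refine ⟨s₀ ^ 6, ?_⟩
  intro N hN
  set s := scale 6 N with hs
  have hss : s₀ ≤ s := le_scale (by norm_num) hN
  have hs6 : s ^ 6 ≤ N := scale_pow_le 6 N (by norm_num)
  have hs6' : N < (s + 1) ^ 6 := lt_succ_scale N
  have hs1 : 1 ≤ s := by omega
  have hsr : (1:ℝ) ≤ s := by exact_mod_cast hs1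
  have hs0 : (0:ℝ) < s := by linarith
  have hN6 : (s:ℝ) ^ 6 ≤ N := by exact_mod_cast hs6
  have hN6' : (N:ℝ) < ((s:ℝ) + 1) ^ 6 := by exact_mod_cast hs6'
  have hNpos : (0:ℝ) < N := lt_of_lt_of_le (by positivity) hN6
  have hs1le : (s:ℝ) + 1 ≤ 2 * s := by linarith
  have hN64 : (N:ℝ) ≤ 64 * (s:ℝ) ^ 6 := by
    have : ((s:ℝ) + 1) ^ 6 ≤ (2 * (s:ℝ)) ^ 6 := pow_le_pow_left₀ (by linarith) hs1le 6
    have e : (2 * (s:ℝ)) ^ 6 = 64 * (s:ℝ) ^ 6 := by ring
    linarith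
  have hNs : s ≤ N := by
    calc s = s ^ 1 := (pow_one s).symm
      _ ≤ s ^ 6 := Nat.pow_le_pow_right hs1 (by norm_num)
      _ ≤ N := hs6
  have hkN : 2 * k ^ 2 ≤ N := by omega
  -- the parameters
  set A : ℝ := C₁ * ((s:ℝ) + 1) ^ 3 with hA
  have hA1 : 1 ≤ A := by
    have h1 : (1:ℝ) ≤ ((s:ℝ) + 1) ^ 3 := one_le_pow₀ (by linarith)
    rw [hA]
    nlinarith
  have hMr : ((C₁ * N : ℕ) : ℝ) = C₁ * N := by push_cast; ring
  have hA2 : ((C₁ * N : ℕ) : ℝ) ≤ A ^ 2 := by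
    rw [hMr, hA]
    have e : ((C₁:ℝ) * ((s:ℝ) + 1) ^ 3) ^ 2 = (C₁:ℝ) ^ 2 * ((s:ℝ) + 1) ^ 6 := by ring
    rw [e]
    have h1 : (C₁:ℝ) * N ≤ (C₁:ℝ) ^ 2 * N := by
      have : (C₁:ℝ) ≤ (C₁:ℝ) ^ 2 := by nlinarith
      exact mul_le_mul_of_nonneg_right this hNpos.le
    have h2 : (C₁:ℝ) ^ 2 * N ≤ (C₁:ℝ) ^ 2 * ((s:ℝ) + 1) ^ 6 :=
      mul_le_mul_of_nonneg_left hN6'.le (by positivity)
    linarith
  have hvar := varT_le hk hkN hA1 hA2
  -- the gap bound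
  obtain ⟨n, hn⟩ : ∃ n, N = n + 1 := ⟨N - 1, by omega⟩
  have hjs : 2 * (j + 1) + 2 ≤ s := by omega
  have hnr : (n:ℝ) + 1 = N := by
    rw [hn]
    push_cast
    ring
  set a : ℝ := 1 / (s:ℝ) ^ 2 with ha
  have ha0 : 0 < a := by positivity
  have ha1 : a ≤ 1 := by
    rw [ha, div_le_one (by positivity)]
    exact one_le_pow₀ hsr
  have hjsr : 2 * ((j:ℝ) + 1) + 2 ≤ s := by exact_mod_cast hjs
  have han : 2 * ((j:ℝ) + 1) ≤ a * n :=
    numeric_han hsr (by linarith [(Nat.cast_nonneg j : (0:ℝ) ≤ j)]) (by positivity) (by rw [hnr]; exact hN6)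
  have hnn : 2 * j + 1 ≤ n := by
    have : 2 * k ^ 2 ≤ n + 1 := by rw [← hn]; exact hkN
    have h2 : k ≤ k ^ 2 := by nlinarith
    omega
  have hG0 := G_le (n := n) (j := j) (M := C₁ * N) (by omega) hnn ha0 ha1 han
  have hG1 : ∑ s ∈ range (C₁ * N), gap N k s ≤ C₃ * (s:ℝ) ^ 2 := by
    subst hn
    rw [hkj]
    refine hG0.trans ?_
    rw [hnr, hMr]
    have hn2 : ((n + 1 : ℕ) : ℝ) = (n:ℝ) + 1 := by push_cast; ring
    have := numeric_gap (s := s) (C₁ := C₁) (J := (j:ℝ) + 1) (a := a) (N := ((n + 1 : ℕ) : ℝ)) (j := j)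
      hsr (by positivity) (by positivity) (by omega) ha hNpos hN64
    rw [hC₃]
    exact this
  -- conclusion
  refine hvar.trans ?_
  rw [hMr]
  rw [le_div_iff₀ hs0]
  have hsum0 : 0 ≤ ∑ s ∈ range (C₁ * N), gap N k s :=
    Finset.sum_nonneg fun t _ => gap_nonneg (by nlinarith) (by omega) t
  exact numeric_final hsr hC₁r hC₃0 hsum0 hG1 hN6

end Vale.Agent.Lib.P170T
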