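import Vale.Agent.Lib.P170T.Life
import Vale.Agent.Lib.P170T.Conv

/-! From the variance bound to the polynomial window (Chebyshev and the first moment). -/

set_option linter.unusedSectionVars false

namespace Vale.Agent.Lib.P170T

open Finset
open Vale.Agent.Lib.P170

/-- The expected truncated lifetime divided by the number of variables. -/
noncomputable def rho (k C1 n : ℕ) : ℝ := (∑ t ∈ range (C1 * n), satProb k n t) / (n : ℝ)

/-- The variance of the truncated lifetime. -/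
noncomputable def Var (k C1 n : ℕ) : ℝ :=
  ∑ t ∈ range (C1 * n), (2 * (t : ℝ) + 1) * satProb k n t -
    (∑ t ∈ range (C1 * n), satProb k n t) ^ 2

/-- Chebyshev for `satProb`, with the first moment bound beyond the horizon. -/
theorem window_one {k C1 n : ℕ} {B : ℝ} (hB : 0 ≤ B) (hkn : k ≤ n) (hn : 1 ≤ n)
    (hC1 : (1 - (1 / 2 : ℝ) ^ k) ^ C1 ≤ 1 / 4) (hV : Var k C1 n ≤ B * (n : ℝ) ^ 2) {d : ℝ}
    (hd : 0 < d) :
    1 - B / d ^ 2 ≤ satProb k n ⌊(rho k C1 n - d) * n⌋₊ ∧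
      satProb k n ⌊(rho k C1 n + d) * n⌋₊ ≤ B / d ^ 2 + (1 / 2 : ℝ) ^ n := by
  have hn0 : (0 : ℝ) < n := by exact_mod_cast hn
  set M := C1 * n with hM
  set p : ℕ → ℝ := fun t => satProb k n t with hp
  have hanti : Antitone p := fun a b hab => satProb_anti hkn hab
  have h0 : ∀ t, 0 ≤ p t := fun t => satProb_nonneg hkn t
  have h1 : ∀ t, p t ≤ 1 := fun t => satProb_le_one hkn t
  set a := ∑ t ∈ range M, p t with ha
  have hrho : rho k C1 n * n = a := by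
    unfold rho
    rw [div_mul_cancel₀ _ hn0.ne']
  have haM : a ≤ M := by
    calc a ≤ ∑ _t ∈ range M, (1 : ℝ) := Finset.sum_le_sum fun t _ => h1 t
      _ = M := by simp
  have ha0 : 0 ≤ a := Finset.sum_nonneg fun t _ => h0 t
  have hd2 : 0 < d ^ 2 := by positivity
  have hdn : 0 < d * n := by positivity
  have hdn2 : (d * n) ^ 2 = d ^ 2 * (n : ℝ) ^ 2 := by ring
  have hn2 : (0 : ℝ) < (n : ℝ) ^ 2 := by positivity
  have hV' : ∑ s ∈ range M, (2 * (s : ℝ) + 1) * p s - a ^ 2 ≤ B * (n : ℝ) ^ 2 := hV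
  constructor
  · -- lower tail
    have e1 : (rho k C1 n - d) * n = a - d * n := by
      rw [sub_mul, hrho]
    rw [e1]
    set m := ⌊a - d * n⌋₊ with hm
    rcases le_or_gt (a - d * n) 0 with hneg | hpos
    · have hm0 : m = 0 := Nat.floor_eq_zero.2 (by linarith)
      rw [hm0, satProb_zero]
      have : 0 ≤ B / d ^ 2 := by positivity
      linarith
    · have hmle : (m : ℝ) ≤ a - d * n := Nat.floor_le hpos.le
      have hmlt : m < M := by
        have : (m : ℝ) < M := by linarith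
        exact_mod_cast this
      have hma : (m : ℝ) ≤ a := by linarith
      have hc := (cheb_tails hanti h0 h1 M m hmlt).2 hma
      have h2 : (d * n) ^ 2 ≤ (a - m) ^ 2 := pow_le_pow_left₀ hdn.le (by linarith) 2
      have h3 : (1 - p m) * (d * n) ^ 2 ≤ (1 - p m) * (a - m) ^ 2 :=
        mul_le_mul_of_nonneg_left h2 (by linarith [h1 m])
      have h4 : (1 - p m) * (d ^ 2 * (n : ℝ) ^ 2) ≤ B * (n : ℝ) ^ 2 := by
        rw [← hdn2]
        linarith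
      have h5 : (1 - p m) * d ^ 2 ≤ B := by
        have e : (1 - p m) * (d ^ 2 * (n : ℝ) ^ 2) = ((1 - p m) * d ^ 2) * (n : ℝ) ^ 2 := by ring
        rw [e] at h4
        exact le_of_mul_le_mul_right h4 hn2
      have h6 : 1 - p m ≤ B / d ^ 2 := by
        rw [le_div_iff₀ hd2]
        exact h5
      show 1 - B / d ^ 2 ≤ p m
      linarith
  · -- upper tail
    have e1 : (rho k C1 n + d) * n = a + d * n := by
      rw [add_mul, hrho]
    rw [e1]
    set m := ⌊a + d * n⌋₊ with hm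
    have hm1 : a + d * n < (m : ℝ) + 1 := Nat.lt_floor_add_one _
    have hhalf : (0 : ℝ) ≤ (1 / 2 : ℝ) ^ n := by positivity
    rcases lt_or_ge m M with hmlt | hmge
    · have hma : a ≤ (m : ℝ) + 1 := by linarith
      have hc := (cheb_tails hanti h0 h1 M m hmlt).1 hma
      have h2 : (d * n) ^ 2 ≤ ((m : ℝ) + 1 - a) ^ 2 := pow_le_pow_left₀ hdn.le (by linarith) 2
      have h3 : p m * (d * n) ^ 2 ≤ p m * ((m : ℝ) + 1 - a) ^ 2 :=
        mul_le_mul_of_nonneg_left h2 (h0 m)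
      have h4 : p m * (d ^ 2 * (n : ℝ) ^ 2) ≤ B * (n : ℝ) ^ 2 := by
        rw [← hdn2]
        linarith
      have h5 : p m * d ^ 2 ≤ B := by
        have e : p m * (d ^ 2 * (n : ℝ) ^ 2) = (p m * d ^ 2) * (n : ℝ) ^ 2 := by ring
        rw [e] at h4
        exact le_of_mul_le_mul_right h4 hn2
      have h6 : p m ≤ B / d ^ 2 := by
        rw [le_div_iff₀ hd2]
        exact h5
      show p m ≤ B / d ^ 2 + (1 / 2 : ℝ) ^ n
      linarith
    · have h2 : satProb k n m ≤ satProb k n M := satProb_anti hkn hmge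
      have h3 := satProb_first_moment hkn M
      have hρ0 : (0 : ℝ) ≤ 1 - (1 / 2 : ℝ) ^ k := by
        have : (1 / 2 : ℝ) ^ k ≤ 1 := pow_le_one₀ (by norm_num) (by norm_num)
        linarith
      have h4 : (1 - (1 / 2 : ℝ) ^ k) ^ M ≤ (1 / 4 : ℝ) ^ n := by
        rw [hM, pow_mul]
        exact pow_le_pow_left₀ (pow_nonneg hρ0 _) hC1 n
      have h5 : (2 : ℝ) ^ n * (1 - (1 / 2 : ℝ) ^ k) ^ M ≤ (1 / 2 : ℝ) ^ n := by
        calc (2 : ℝ) ^ n * (1 - (1 / 2 : ℝ) ^ k) ^ M ≤ (2 : ℝ) ^ n * (1 / 4 : ℝ) ^ n :=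
              mul_le_mul_of_nonneg_left h4 (by positivity)
          _ = (1 / 2 : ℝ) ^ n := by
              rw [← mul_pow]
              norm_num
      have : 0 ≤ B / d ^ 2 := by positivity
      linarith

/-- Beyond the horizon: a bound that decays in `d`. -/
theorem upper_far {k C1 n m : ℕ} (hkn : k ≤ n) (hn : 1 ≤ n)
    (hC1 : (1 - (1 / 2 : ℝ) ^ k) ^ C1 ≤ 1 / 4) (hmM : C1 * n ≤ m) {d : ℝ} (hd : 0 < d)
    (hdm : d * n < m) :
    ((n : ℝ) ^ (((6 : ℕ) : ℝ)⁻¹) * d ^ 2) * satProb k n m ≤ 4 * (C1 : ℝ) ^ 2 := by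
  have hn0 : (0 : ℝ) < n := by exact_mod_cast hn
  have hn1 : (1 : ℝ) ≤ n := by exact_mod_cast hn
  have hρ0 : (0 : ℝ) ≤ 1 - (1 / 2 : ℝ) ^ k := by
    have : (1 / 2 : ℝ) ^ k ≤ 1 := pow_le_one₀ (by norm_num) (by norm_num)
    linarith
  have hρ1 : 1 - (1 / 2 : ℝ) ^ k ≤ 1 := by
    have : (0 : ℝ) ≤ (1 / 2 : ℝ) ^ k := by positivity
    linarith
  have hC1pos : 0 < C1 := by
    rcases Nat.eq_zero_or_pos C1 with h | h
    · subst h
      norm_num at hC1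
    · exact h
  set q := m / C1 with hq
  have hq1 : C1 * q ≤ m := Nat.mul_div_le m C1
  have hq2 : m < C1 * (q + 1) := by
    have := Nat.lt_mul_div_succ m hC1pos
    simpa [hq] using this
  have hqn : n ≤ q := (Nat.le_div_iff_mul_le hC1pos).2 (by rw [mul_comm]; exact hmM)
  -- the first moment
  have h1 := satProb_first_moment hkn m
  have h2 : (1 - (1 / 2 : ℝ) ^ k) ^ m ≤ (1 / 4 : ℝ) ^ q := by
    calc (1 - (1 / 2 : ℝ) ^ k) ^ m ≤ (1 - (1 / 2 : ℝ) ^ k) ^ (C1 * q) :=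
          pow_le_pow_of_le_one hρ0 hρ1 hq1
      _ = ((1 - (1 / 2 : ℝ) ^ k) ^ C1) ^ q := pow_mul _ _ _
      _ ≤ (1 / 4 : ℝ) ^ q := pow_le_pow_left₀ (pow_nonneg hρ0 _) hC1 q
  have h3 : (2 : ℝ) ^ n ≤ (2 : ℝ) ^ q := pow_le_pow_right₀ (by norm_num) hqn
  have h4 : satProb k n m ≤ (1 / 2 : ℝ) ^ q := by
    calc satProb k n m ≤ (2 : ℝ) ^ n * (1 - (1 / 2 : ℝ) ^ k) ^ m := h1
      _ ≤ (2 : ℝ) ^ q * (1 / 4 : ℝ) ^ q :=
          mul_le_mul h3 h2 (pow_nonneg hρ0 _) (by positivity)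
      _ = (1 / 2 : ℝ) ^ q := by
          rw [← mul_pow]
          norm_num
  -- the size of `d`
  have hmq : (m : ℝ) < C1 * ((q : ℝ) + 1) := by exact_mod_cast hq2
  have hdlt : d < C1 * ((q : ℝ) + 1) / n := by
    rw [lt_div_iff₀ hn0]
    linarith
  have hd2 : d ^ 2 ≤ ((C1 : ℝ) * ((q : ℝ) + 1) / n) ^ 2 := pow_le_pow_left₀ hd.le hdlt.le 2
  -- `n ^ (1/6) ≤ n ^ 2`
  have hpow : (n : ℝ) ^ (((6 : ℕ) : ℝ)⁻¹) ≤ (n : ℝ) ^ 2 := by
    have e : (n : ℝ) ^ 2 = (n : ℝ) ^ ((2 : ℕ) : ℝ) := (Real.rpow_natCast _ _).symm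
    rw [e]
    apply Real.rpow_le_rpow_of_exponent_le hn1
    norm_num
  have hq0 : (0 : ℝ) ≤ q := by positivity
  have hpp : ∀ j : ℕ, ((j : ℝ) + 1) ^ 2 ≤ 4 * (2 : ℝ) ^ j := by
    intro j
    induction j with
    | zero => norm_num
    | succ j ih =>
      rcases Nat.lt_or_ge j 2 with hj | hj
      · interval_cases j <;> norm_num
      · have hj' : (2 : ℝ) ≤ j := by exact_mod_cast hj
        have e : 4 * (2 : ℝ) ^ (j + 1) = 2 * (4 * (2 : ℝ) ^ j) := by ring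
        rw [e]
        push_cast
        nlinarith
  have hmain : (n : ℝ) ^ (((6 : ℕ) : ℝ)⁻¹) * d ^ 2 ≤ (C1 : ℝ) ^ 2 * (4 * (2 : ℝ) ^ q) := by
    calc (n : ℝ) ^ (((6 : ℕ) : ℝ)⁻¹) * d ^ 2
        ≤ (n : ℝ) ^ 2 * ((C1 : ℝ) * ((q : ℝ) + 1) / n) ^ 2 :=
          mul_le_mul hpow hd2 (by positivity) (by positivity)
      _ = (C1 : ℝ) ^ 2 * ((q : ℝ) + 1) ^ 2 := by
          field_simp
      _ ≤ (C1 : ℝ) ^ 2 * (4 * (2 : ℝ) ^ q) :=
          mul_le_mul_of_nonneg_left (hpp q) (by positivity)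
  have hsat0 : 0 ≤ satProb k n m := satProb_nonneg hkn m
  calc ((n : ℝ) ^ (((6 : ℕ) : ℝ)⁻¹) * d ^ 2) * satProb k n m
      ≤ ((C1 : ℝ) ^ 2 * (4 * (2 : ℝ) ^ q)) * (1 / 2 : ℝ) ^ q :=
        mul_le_mul hmain h4 hsat0 (by positivity)
    _ = 4 * (C1 : ℝ) ^ 2 * ((2 : ℝ) ^ q * (1 / 2 : ℝ) ^ q) := by ring
    _ = 4 * (C1 : ℝ) ^ 2 := by
        rw [← mul_pow]
        norm_num

/-- The scale against a power. -/
lemma rpow_le_two_scale {n : ℕ} (hn : 1 ≤ n) :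
    (n : ℝ) ^ (((6 : ℕ) : ℝ)⁻¹) ≤ 2 * (scale 6 n : ℝ) := by
  set s := scale 6 n with hs
  have hs1 : 1 ≤ s := le_scale (by norm_num) (by simpa using hn)
  have hlt : n < (s + 1) ^ 6 := by
    by_contra hcon
    push Not at hcon
    have := le_scale (a := 6) (by norm_num) hcon
    omega
  have hlt' : (n : ℝ) ≤ ((s : ℝ) + 1) ^ 6 := by
    have : (n : ℝ) < ((s + 1 : ℕ) : ℝ) ^ 6 := by exact_mod_cast hlt
    push_cast at this
    exact this.le
  have h1 : (n : ℝ) ^ (((6 : ℕ) : ℝ)⁻¹) ≤ (((s : ℝ) + 1) ^ 6) ^ (((6 : ℕ) : ℝ)⁻¹) :=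
    Real.rpow_le_rpow (by positivity) hlt' (by positivity)
  have e : (((s : ℝ) + 1) ^ 6) ^ (((6 : ℕ) : ℝ)⁻¹) = (s : ℝ) + 1 :=
    Real.pow_rpow_inv_natCast (by positivity) (by norm_num)
  rw [e] at h1
  have hs1' : (1 : ℝ) ≤ s := by exact_mod_cast hs1
  linarith

/-- The polynomial window. -/
theorem polyWindow_of_var {k C1 : ℕ} {C4 : ℝ} (hC1 : (1 - (1 / 2 : ℝ) ^ k) ^ C1 ≤ 1 / 4) {N0 : ℕ}
    (hC4 : 0 ≤ C4)
    (hV : ∀ N, N0 ≤ N → ∑ s ∈ range (C1 * N), (2 * (s : ℝ) + 1) * satProb k N s -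
      (∑ t ∈ range (C1 * N), satProb k N t) ^ 2 ≤ C4 * (N : ℝ) ^ 2 / (scale 6 N : ℝ)) :
    PolyWindow k (rho k C1) := by
  refine ⟨2 * C4 + 4 * (C1 : ℝ) ^ 2 + 1, ((6 : ℕ) : ℝ)⁻¹, by positivity, by positivity,
    max N0 (max k 1), ?_⟩
  intro n hn d hd
  have hn1 : N0 ≤ n := le_trans (le_max_left _ _) hn
  have hkn : k ≤ n := le_trans (le_trans (le_max_left _ _) (le_max_right _ _)) hn
  have hn2 : 1 ≤ n := le_trans (le_trans (le_max_right _ _) (le_max_right _ _)) hn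
  have hn0 : (0 : ℝ) < n := by exact_mod_cast hn2
  have hs1 : 1 ≤ scale 6 n := le_scale (by norm_num) (by simpa using hn2)
  have hs0 : (0 : ℝ) < scale 6 n := by exact_mod_cast hs1
  set c : ℝ := ((6 : ℕ) : ℝ)⁻¹ with hc
  have hnc : 0 < (n : ℝ) ^ c := Real.rpow_pos_of_pos hn0 _
  have hd2 : 0 < d ^ 2 := by positivity
  have hden : 0 < (n : ℝ) ^ c * d ^ 2 := by positivity
  set C := 2 * C4 + 4 * (C1 : ℝ) ^ 2 + 1 with hCdef
  have hB0 : 0 ≤ C4 / (scale 6 n : ℝ) := by positivity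
  have hB : Var k C1 n ≤ (C4 / (scale 6 n : ℝ)) * (n : ℝ) ^ 2 := by
    have := hV n hn1
    have e : C4 * (n : ℝ) ^ 2 / (scale 6 n : ℝ) = (C4 / (scale 6 n : ℝ)) * (n : ℝ) ^ 2 := by ring
    rw [e] at this
    exact this
  have hscale := rpow_le_two_scale hn2
  have hcomp : C4 / (scale 6 n : ℝ) / d ^ 2 ≤ C / ((n : ℝ) ^ c * d ^ 2) := by
    rw [div_div, div_le_div_iff₀ (by positivity) hden]
    have h1 : (n : ℝ) ^ c * d ^ 2 ≤ 2 * (scale 6 n : ℝ) * d ^ 2 :=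
      mul_le_mul_of_nonneg_right hscale hd2.le
    have h2 : C4 * ((n : ℝ) ^ c * d ^ 2) ≤ C4 * (2 * (scale 6 n : ℝ) * d ^ 2) :=
      mul_le_mul_of_nonneg_left h1 hC4
    have h3 : 2 * C4 ≤ C := by
      rw [hCdef]
      have : (0 : ℝ) ≤ 4 * (C1 : ℝ) ^ 2 := by positivity
      linarith
    have h4 : 0 ≤ (scale 6 n : ℝ) * d ^ 2 := by positivity
    nlinarith
  refine ⟨?_, ?_⟩
  · exact le_trans (by linarith) (window_one hB0 hkn hn2 hC1 hB hd).1
  · -- upper tail: two cases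
    have e1 : (rho k C1 n + d) * n = (∑ t ∈ range (C1 * n), satProb k n t) + d * n := by
      unfold rho
      rw [add_mul, div_mul_cancel₀ _ hn0.ne']
    have hdn : 0 < d * n := by positivity
    rw [e1]
    set a := ∑ t ∈ range (C1 * n), satProb k n t with ha
    set m := ⌊a + d * n⌋₊ with hm
    have hm1 : a + d * n < (m : ℝ) + 1 := Nat.lt_floor_add_one _
    have hanti : Antitone fun t => satProb k n t := fun a b hab => satProb_anti hkn hab
    have h0 : ∀ t, 0 ≤ satProb k n t := fun t => satProb_nonneg hkn t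
    have h1 : ∀ t, satProb k n t ≤ 1 := fun t => satProb_le_one hkn t
    rcases lt_or_ge m (C1 * n) with hmlt | hmge
    · have hma : a ≤ (m : ℝ) + 1 := by linarith
      have hc' := (cheb_tails hanti h0 h1 (C1 * n) m hmlt).1 hma
      have h2 : (d * n) ^ 2 ≤ ((m : ℝ) + 1 - a) ^ 2 := pow_le_pow_left₀ hdn.le (by linarith) 2
      have h3 : satProb k n m * (d * n) ^ 2 ≤ satProb k n m * ((m : ℝ) + 1 - a) ^ 2 :=
        mul_le_mul_of_nonneg_left h2 (h0 m)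
      have hV' : ∑ s ∈ range (C1 * n), (2 * (s : ℝ) + 1) * satProb k n s - a ^ 2 ≤
          (C4 / (scale 6 n : ℝ)) * (n : ℝ) ^ 2 := hB
      have h4 : (satProb k n m * d ^ 2) * (n : ℝ) ^ 2 ≤ (C4 / (scale 6 n : ℝ)) * (n : ℝ) ^ 2 := by
        have e : (satProb k n m * d ^ 2) * (n : ℝ) ^ 2 = satProb k n m * (d * n) ^ 2 := by ring
        rw [e]
        linarith
      have h5 : satProb k n m * d ^ 2 ≤ C4 / (scale 6 n : ℝ) :=
        le_of_mul_le_mul_right h4 (by positivity)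
      have h6 : satProb k n m ≤ C4 / (scale 6 n : ℝ) / d ^ 2 := by
        rw [le_div_iff₀ hd2]
        exact h5
      exact h6.trans hcomp
    · have hC1pos : 0 < C1 := by
        rcases Nat.eq_zero_or_pos C1 with h | h
        · subst h
          norm_num at hC1
        · exact h
      have hMpos : 0 < C1 * n := Nat.mul_pos hC1pos hn2
      have ha1 : 1 ≤ a := by
        have h2 : satProb k n 0 ≤ a :=
          Finset.single_le_sum (f := fun t => satProb k n t) (fun t _ => h0 t)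
            (Finset.mem_range.2 hMpos)
        rwa [satProb_zero] at h2
      have hfar := upper_far hkn hn2 hC1 hmge hd (by linarith : d * n < (m : ℝ))
      rw [le_div_iff₀ hden]
      have hcomm : satProb k n m * ((n : ℝ) ^ c * d ^ 2) =
          ((n : ℝ) ^ c * d ^ 2) * satProb k n m := mul_comm _ _
      rw [hcomm]
      refine hfar.trans ?_
      rw [hCdef]
      linarith

/-- The window, in the form used for the limit. -/
theorem window_of_var {k C1 : ℕ} {C4 : ℝ} (hC1 : (1 - (1 / 2 : ℝ) ^ k) ^ C1 ≤ 1 / 4) {N0 : ℕ}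
    (hC4 : 0 ≤ C4)
    (hV : ∀ N, N0 ≤ N → Var k C1 N ≤ C4 * (N : ℝ) ^ 2 / (scale 6 N : ℝ)) :
    ∀ n, N0 ≤ n → k ≤ n → 1 ≤ n → ∀ d : ℝ, 0 < d →
      1 - C4 / ((scale 6 n : ℝ) * d ^ 2) ≤ satProb k n ⌊(rho k C1 n - d) * n⌋₊ ∧
      satProb k n ⌊(rho k C1 n + d) * n⌋₊ ≤ C4 / ((scale 6 n : ℝ) * d ^ 2) + (1 / 2 : ℝ) ^ n := by
  intro n hn hkn hn1 d hd
  have hB0 : 0 ≤ C4 / (scale 6 n : ℝ) := by positivity
  have hB : Var k C1 n ≤ (C4 / (scale 6 n : ℝ)) * (n : ℝ) ^ 2 := by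
    have := hV n hn
    have e : C4 * (n : ℝ) ^ 2 / (scale 6 n : ℝ) = (C4 / (scale 6 n : ℝ)) * (n : ℝ) ^ 2 := by ring
    rwa [e] at this
  have h := window_one hB0 hkn hn1 hC1 hB hd
  have e : C4 / (scale 6 n : ℝ) / d ^ 2 = C4 / ((scale 6 n : ℝ) * d ^ 2) := by
    rw [div_div]
  rwa [e] at h

end Vale.Agent.Lib.P170T
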